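import Mathlib

/-!
Extension of a nonarchimedean absolute value to an algebraically closed field, and roots of
polynomials having a large coefficient.
-/

namespace Vale.Agent.Lib.P184

open Filter

/-- A field with a nontrivial nonarchimedean absolute value embeds, compatibly with absolute values,
in an algebraically closed field with a nonarchimedean absolute value. -/
theorem exists_algClosed_extension.{u} {K : Type u} [Field K] (v : AbsoluteValue K ℝ)
    (hna : IsNonarchimedean v) (hnt : ∃ x, 1 < v x) :
    ∃ (E : Type u) (_ : Field E) (_ : IsAlgClosed E) (w : AbsoluteValue E ℝ) (σ : K →+* E),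
      IsNonarchimedean w ∧ ∀ x, w (σ x) = v x := by
  obtain ⟨x0, hx0⟩ := hnt
  have hnorm : ∀ x : K, ‖((WithAbs.toAbs v x : WithAbs v) : v.Completion)‖ = v x := by
    intro x
    rw [UniformSpace.Completion.norm_coe]
    rfl
  letI inst1 : NontriviallyNormedField v.Completion :=
    { (inferInstance : NormedField v.Completion) with
      non_trivial := ⟨((WithAbs.toAbs v x0 : WithAbs v) : v.Completion), by rw [hnorm]; exact hx0⟩ }
  haveI inst2 : IsUltrametricDist v.Completion := by
    apply IsUltrametricDist.isUltrametricDist_of_forall_norm_add_le_max_norm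
    intro x y
    refine UniformSpace.Completion.induction_on₂ x y ?_ ?_
    · exact isClosed_le (by fun_prop) (by fun_prop)
    · intro a b
      rw [← UniformSpace.Completion.coe_add]
      simp only [UniformSpace.Completion.norm_coe]
      exact hna (WithAbs.ofAbs a) (WithAbs.ofAbs b)
  refine ⟨AlgebraicClosure v.Completion, inferInstance, inferInstance,
    { toFun := spectralNorm v.Completion (AlgebraicClosure v.Completion)
      map_mul' := fun x y => map_mul (spectralMulAlgNorm v.Completion _) x y
      nonneg' := fun x => spectralNorm_nonneg x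
      eq_zero' := fun x => map_eq_zero_iff_eq_zero (spectralMulAlgNorm v.Completion _)
      add_le' := fun x y => map_add_le_add (spectralMulAlgNorm v.Completion _) x y },
    (algebraMap v.Completion (AlgebraicClosure v.Completion)).comp
      ((UniformSpace.Completion.coeRingHom).comp (WithAbs.equiv v).symm.toRingHom), ?_, ?_⟩
  · exact isNonarchimedean_spectralNorm
  · intro x
    show spectralNorm v.Completion (AlgebraicClosure v.Completion)
      (algebraMap v.Completion (AlgebraicClosure v.Completion)
        ((WithAbs.toAbs v x : WithAbs v) : v.Completion)) = v x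
    rw [spectralNorm_extends]
    exact hnorm x

open Polynomial in
/-- a product of linear factors with small roots has small coefficients -/
theorem coeff_le_one_of_roots {E : Type*} [Field E] (w : AbsoluteValue E ℝ)
    (hna : IsNonarchimedean w) (s : Multiset E) (hs : ∀ a ∈ s, w a ≤ 1) :
    ∀ k : ℕ, w ((s.map (fun a => X - C a)).prod.coeff k) ≤ 1 := by
  induction s using Multiset.induction_on with
  | empty =>
    intro k
    simp only [Multiset.map_zero, Multiset.prod_zero, coeff_one]
    split_ifs <;> simp
  | cons a s ih =>
    intro k
    have ih' := ih (fun b hb => hs b (Multiset.mem_cons_of_mem hb))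
    have ha := hs a (Multiset.mem_cons_self a s)
    set Q := (s.map (fun a => X - C a)).prod with hQ
    rw [Multiset.map_cons, Multiset.prod_cons, sub_mul, coeff_sub, coeff_C_mul]
    have h2 : w (a * Q.coeff k) ≤ 1 := by
      rw [w.map_mul]
      exact mul_le_one₀ ha (w.nonneg _) (ih' k)
    have h1 : w ((X * Q).coeff k) ≤ 1 := by
      cases k with
      | zero => simp
      | succ k => rw [coeff_X_mul]; exact ih' k
    have h3 := hna ((X * Q).coeff k) (-(a * Q.coeff k))
    rw [w.map_neg, ← sub_eq_add_neg] at h3
    exact h3.trans (max_le h1 h2)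

open Polynomial in
/-- a monic polynomial with a large coefficient has a large root -/
theorem exists_root_gt_one {E : Type*} [Field E] [IsAlgClosed E] (w : AbsoluteValue E ℝ)
    (hna : IsNonarchimedean w) (P : E[X]) (hP : P.Monic) (k : ℕ) (hk : 1 < w (P.coeff k)) :
    ∃ a, P.IsRoot a ∧ 1 < w a := by
  by_contra hcon
  push Not at hcon
  have hsplit := (IsAlgClosed.splits P).eq_prod_roots_of_monic hP
  have h1 := coeff_le_one_of_roots w hna P.roots
    (fun a ha => hcon a ((mem_roots hP.ne_zero).mp ha)) k
  rw [← hsplit] at h1
  linarith

/-- a root of the characteristic polynomial is an eigenvalue -/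
theorem exists_eigenvector_of_isRoot {E : Type*} [Field E] {m : Type*} [Fintype m] [DecidableEq m]
    (A : Matrix m m E) (a : E) (ha : A.charpoly.IsRoot a) :
    ∃ x : m → E, x ≠ 0 ∧ A.mulVec x = a • x := by
  have h1 : (Matrix.scalar m a - A).det = 0 := by
    rw [← Matrix.eval_charpoly]
    exact ha
  obtain ⟨x, hx, hx2⟩ := Matrix.exists_mulVec_eq_zero_iff.mpr h1
  refine ⟨x, hx, ?_⟩
  rw [Matrix.sub_mulVec, sub_eq_zero] at hx2
  rw [← hx2]
  ext i
  simp [Matrix.scalar_apply, Matrix.mulVec_diagonal]

end Vale.Agent.Lib.P184
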