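import Mathlib

/-!
Statement-level definitions for the `ℓ¹`-Bass conjecture: convolution, idempotent matrices over
`ℓ¹(G)` and the coefficients of the Hattori-Stallings trace.
-/

namespace Vale.Agent.Lib.P184

variable {G : Type*} [Group G]

/-- Convolution `(a * b)(g) = ∑_h a(h) b(h⁻¹ g)` of two complex functions on `G`. -/
noncomputable def conv (a b : G → ℂ) : G → ℂ := fun g => ∑' h, a h * b (h⁻¹ * g)

/-- `e` is an idempotent matrix over `ℓ¹(G)` (rows and columns indexed by the finite type `ι`):
every entry is absolutely summable and `e * e = e` for the convolution product of matrices. -/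
structure IsIdempotentL1 {ι : Type*} [Fintype ι] (e : ι → ι → G → ℂ) : Prop where
  summable : ∀ i j, Summable fun g => ‖e i j g‖
  idem : ∀ i j g, ∑ k, conv (e i k) (e k j) g = e i j g

/-- The coefficient `τ_C(e) = ∑_{g ∈ C} ∑_i e_ii(g)` of the Hattori-Stallings trace of `e`
at the conjugacy class `C`. -/
noncomputable def hsCoeff {ι : Type*} [Fintype ι] (e : ι → ι → G → ℂ) (C : ConjClasses G) : ℂ :=
  ∑' g : C.carrier, ∑ i, e i i g

end Vale.Agent.Lib.P184
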