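import Mathlib

/-!
Abstract rigidity of traces on idempotents: in a normed ring with a bounded trace, two idempotents
at distance less than one have the same trace.
-/

namespace Vale.Agent.Lib.P184

theorem trace_sub_eq_trace_pow {A : Type*} [Ring A] (T : A →+ ℂ)
    (hT : ∀ x y, T (x * y) = T (y * x)) {e f : A} (he : e * e = e) (hf : f * f = f) (n : ℕ) :
    T (e - f) = T ((e - f) ^ (2 * n + 1)) := by
  have h1 : (e - f) * (e - f) + (1 - e - f) * (1 - e - f) = 1 := by
    simp only [mul_sub, sub_mul, he, hf, mul_one, one_mul]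
    abel
  have h2 : (1 - e - f) * (e - f) = - ((e - f) * (1 - e - f)) := by
    simp only [mul_sub, sub_mul, he, hf, mul_one, one_mul]
    abel
  set a := e - f with ha
  set b := 1 - e - f with hb
  have h3 : Commute b (a * a) := by
    show b * (a * a) = a * a * b
    rw [← mul_assoc, h2, neg_mul, mul_assoc, h2, mul_neg, neg_neg, mul_assoc]
  induction n with
  | zero => simp
  | succ n ih =>
    rw [ih]
    have h4 : a ^ (2 * n + 1) = (a * a) ^ n * a := by
      rw [pow_succ, pow_mul, pow_two]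
    have h5 : b * a ^ (2 * n + 1) = - (a ^ (2 * n + 1) * b) := by
      rw [h4, ← mul_assoc, (h3.pow_right n).eq, mul_assoc, h2, mul_neg, mul_assoc]
    have h6 : a ^ (2 * (n + 1) + 1) = a ^ (2 * n + 1) * (a * a) := by
      rw [show 2 * (n + 1) + 1 = (2 * n + 1) + 2 by ring, pow_add, pow_two]
    have h7 : a ^ (2 * n + 1) = a ^ (2 * n + 1) * (a * a) + a ^ (2 * n + 1) * b * b := by
      rw [mul_assoc, ← mul_add, h1, mul_one]
    have h8 : T (a ^ (2 * n + 1) * b * b) = 0 := by
      have : T (a ^ (2 * n + 1) * b * b) = - T (a ^ (2 * n + 1) * b * b) := by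
        conv_lhs => rw [hT, ← mul_assoc, h5, neg_mul, map_neg]
      have h9 : (2 : ℂ) * T (a ^ (2 * n + 1) * b * b) = 0 := by
        linear_combination this
      simpa using h9
    rw [h6]
    conv_lhs => rw [h7, map_add, h8, add_zero]

theorem trace_eq_of_norm_sub_lt_one {A : Type*} [NormedRing A] (T : A →+ ℂ) (K : ℝ)
    (hK : ∀ x, ‖T x‖ ≤ K * ‖x‖) (hT : ∀ x y, T (x * y) = T (y * x)) {e f : A}
    (he : e * e = e) (hf : f * f = f) (h : ‖e - f‖ < 1) : T e = T f := by
  have hbound : ∀ n : ℕ, ‖T (e - f)‖ ≤ |K| * ‖e - f‖ ^ (2 * n + 1) := by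
    intro n
    rw [trace_sub_eq_trace_pow T hT he hf n]
    calc ‖T ((e - f) ^ (2 * n + 1))‖ ≤ K * ‖(e - f) ^ (2 * n + 1)‖ := hK _
      _ ≤ |K| * ‖(e - f) ^ (2 * n + 1)‖ :=
          mul_le_mul_of_nonneg_right (le_abs_self K) (norm_nonneg _)
      _ ≤ |K| * ‖e - f‖ ^ (2 * n + 1) :=
          mul_le_mul_of_nonneg_left (norm_pow_le' _ (Nat.succ_pos _)) (abs_nonneg K)
  have hlim : Filter.Tendsto (fun n : ℕ => |K| * ‖e - f‖ ^ (2 * n + 1)) Filter.atTop (nhds 0) := by
    have h1 : Filter.Tendsto (fun n : ℕ => ‖e - f‖ ^ n) Filter.atTop (nhds 0) :=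
      tendsto_pow_atTop_nhds_zero_of_lt_one (norm_nonneg _) h
    have h2 : Filter.Tendsto (fun n : ℕ => 2 * n + 1) Filter.atTop Filter.atTop := by
      apply Filter.tendsto_atTop_mono (fun n => by omega : ∀ n : ℕ, n ≤ 2 * n + 1)
      exact Filter.tendsto_id
    have h3 := (h1.comp h2).const_mul |K|
    simpa using h3
  have h0 : ‖T (e - f)‖ ≤ 0 := ge_of_tendsto' hlim hbound
  have h1 : T (e - f) = 0 := norm_le_zero_iff.mp h0
  rw [map_sub, sub_eq_zero] at h1
  exact h1

end Vale.Agent.Lib.P184
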