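import Mathlib
import Vale.Agent.Lib.P184.Defs
import Vale.Agent.Lib.P184.Rigidity

/-!
Integrated form of a norm-bounded representation of `G` in a Banach algebra, and the generic
comparison theorem for idempotent matrices over `ℓ¹(G)`.
-/

namespace Vale.Agent.Lib.P184

variable {G : Type*} [Group G]
variable {𝔄 : Type*} [NormedRing 𝔄] [NormedAlgebra ℂ 𝔄] [CompleteSpace 𝔄]

/-- integrated form -/
noncomputable def lam (u : G → 𝔄) (a : G → ℂ) : 𝔄 := ∑' y, a y • u y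

theorem summable_lam {u : G → 𝔄} (hu : ∀ y, ‖u y‖ ≤ 1) {a : G → ℂ}
    (ha : Summable fun g => ‖a g‖) : Summable fun y => a y • u y := by
  refine Summable.of_norm_bounded ha (fun y => ?_)
  calc ‖a y • u y‖ ≤ ‖a y‖ * ‖u y‖ := norm_smul_le _ _
    _ ≤ ‖a y‖ * 1 := mul_le_mul_of_nonneg_left (hu y) (norm_nonneg _)
    _ = ‖a y‖ := mul_one _

theorem summable_norm_lam {u : G → 𝔄} (hu : ∀ y, ‖u y‖ ≤ 1) {a : G → ℂ}
    (ha : Summable fun g => ‖a g‖) : Summable fun y => ‖a y • u y‖ := by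
  refine Summable.of_nonneg_of_le (fun _ => norm_nonneg _) (fun y => ?_) ha
  calc ‖a y • u y‖ ≤ ‖a y‖ * ‖u y‖ := norm_smul_le _ _
    _ ≤ ‖a y‖ * 1 := mul_le_mul_of_nonneg_left (hu y) (norm_nonneg _)
    _ = ‖a y‖ := mul_one _

/-- the reindexing `(x, g) ↦ (g, g⁻¹ x)` of `G × G` -/
def shear : G × G ≃ G × G where
  toFun p := (p.2, p.2⁻¹ * p.1)
  invFun p := (p.1 * p.2, p.1)
  left_inv p := by simp
  right_inv p := by simp

theorem summable_shear {a b : G → ℂ} (ha : Summable fun g => ‖a g‖)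
    (hb : Summable fun g => ‖b g‖) :
    Summable fun p : G × G => ‖a p.2‖ * ‖b (p.2⁻¹ * p.1)‖ := by
  have h := ha.mul_of_nonneg hb (fun _ => norm_nonneg _) (fun _ => norm_nonneg _)
  exact (shear (G := G)).summable_iff.mpr h

theorem summable_conv_integrand {a b : G → ℂ} (ha : Summable fun g => ‖a g‖)
    (hb : Summable fun g => ‖b g‖) (x : G) : Summable fun g => a g * b (g⁻¹ * x) := by
  have h := (summable_shear ha hb).prod_factor x
  refine Summable.of_norm ?_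
  simpa [norm_mul] using h

theorem summable_conv {a b : G → ℂ} (ha : Summable fun g => ‖a g‖)
    (hb : Summable fun g => ‖b g‖) : Summable fun x => ‖conv a b x‖ := by
  have h := (summable_shear ha hb).prod
  refine Summable.of_nonneg_of_le (fun _ => norm_nonneg _) (fun x => ?_) h
  have h2 := (summable_shear ha hb).prod_factor x
  calc ‖conv a b x‖ ≤ ∑' g, ‖a g * b (g⁻¹ * x)‖ := by
        apply norm_tsum_le_tsum_norm
        simpa [norm_mul] using h2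
    _ = ∑' g, ‖a g‖ * ‖b (g⁻¹ * x)‖ := by simp [norm_mul]

theorem lam_mul (u : G →* 𝔄) (hu : ∀ y, ‖u y‖ ≤ 1) {a b : G → ℂ}
    (ha : Summable fun g => ‖a g‖) (hb : Summable fun g => ‖b g‖) :
    lam u a * lam u b = lam u (conv a b) := by
  have h1 : lam u a * lam u b = ∑' p : G × G, (a p.1 • u p.1) * (b p.2 • u p.2) := by
    unfold lam
    exact tsum_mul_tsum_of_summable_norm (f := fun y => a y • u y) (g := fun y => b y • u y)
      (summable_norm_lam hu ha) (summable_norm_lam hu hb)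
  have hsum : Summable fun p : G × G => (a p.1 • u p.1) * (b p.2 • u p.2) :=
    summable_mul_of_summable_norm (f := fun y => a y • u y) (g := fun y => b y • u y)
      (summable_norm_lam hu ha) (summable_norm_lam hu hb)
  rw [h1, ← (shear (G := G)).tsum_eq]
  have hsum2 : Summable fun p : G × G =>
      (a (shear p).1 • u (shear p).1) * (b (shear p).2 • u (shear p).2) :=
    (shear (G := G)).summable_iff.mpr hsum
  rw [hsum2.tsum_prod]
  unfold lam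
  refine tsum_congr (fun x => ?_)
  have h3 : ∀ g : G, (a (shear (x, g)).1 • u (shear (x, g)).1) *
      (b (shear (x, g)).2 • u (shear (x, g)).2) = (a g * b (g⁻¹ * x)) • u x := by
    intro g
    simp only [shear, Equiv.coe_fn_mk]
    rw [smul_mul_smul_comm, ← map_mul, mul_inv_cancel_left]
  simp_rw [h3]
  rw [(summable_conv_integrand ha hb x).tsum_smul_const]
  rfl

theorem lam_finset_sum {u : G → 𝔄} (hu : ∀ y, ‖u y‖ ≤ 1) {κ : Type*} (s : Finset κ)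
    (a : κ → G → ℂ) (ha : ∀ k, Summable fun g => ‖a k g‖) :
    lam u (fun g => ∑ k ∈ s, a k g) = ∑ k ∈ s, lam u (a k) := by
  unfold lam
  simp_rw [Finset.sum_smul]
  exact Summable.tsum_finsetSum (fun k _ => summable_lam hu (ha k))

theorem lam_mem {u : G → 𝔄} (hu : ∀ y, ‖u y‖ ≤ 1) (𝔅 : Subalgebra ℂ 𝔄)
    (hcl : IsClosed (𝔅 : Set 𝔄)) (hmem : ∀ y, u y ∈ 𝔅) {a : G → ℂ}
    (ha : Summable fun g => ‖a g‖) : lam u a ∈ 𝔅 := by
  have h := (summable_lam hu ha).hasSum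
  refine hcl.mem_of_tendsto h (Filter.Eventually.of_forall fun s => ?_)
  exact 𝔅.sum_mem (fun y _ => 𝔅.smul_mem (hmem y) _)

theorem norm_lam_sub_le {u v : G → 𝔄} (hu : ∀ y, ‖u y‖ ≤ 1) (hv : ∀ y, ‖v y‖ ≤ 1) {a : G → ℂ}
    (ha : Summable fun g => ‖a g‖) :
    ‖lam u a - lam v a‖ ≤ ∑' y, ‖a y‖ * ‖u y - v y‖ := by
  unfold lam
  rw [← (summable_lam hu ha).tsum_sub (summable_lam hv ha)]
  have hs : Summable fun y => ‖a y‖ * ‖u y - v y‖ := by
    refine Summable.of_nonneg_of_le (fun y => mul_nonneg (norm_nonneg _) (norm_nonneg _))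
      (fun y => ?_) (ha.mul_right 2)
    refine mul_le_mul_of_nonneg_left ?_ (norm_nonneg _)
    calc ‖u y - v y‖ ≤ ‖u y‖ + ‖v y‖ := norm_sub_le _ _
      _ ≤ 2 := by linarith [hu y, hv y]
  have hle : ∀ y, ‖a y • u y - a y • v y‖ ≤ ‖a y‖ * ‖u y - v y‖ := by
    intro y
    rw [← smul_sub]
    exact norm_smul_le _ _
  calc ‖∑' y, (a y • u y - a y • v y)‖ ≤ ∑' y, ‖a y • u y - a y • v y‖ :=
        norm_tsum_le_tsum_norm (Summable.of_nonneg_of_le (fun _ => norm_nonneg _) hle hs)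
    _ ≤ ∑' y, ‖a y‖ * ‖u y - v y‖ :=
        (Summable.of_nonneg_of_le (fun _ => norm_nonneg _) hle hs).tsum_le_tsum hle hs

theorem apply_lam (T : 𝔄 →L[ℂ] ℂ) {u : G → 𝔄} (hu : ∀ y, ‖u y‖ ≤ 1) {a : G → ℂ}
    (ha : Summable fun g => ‖a g‖) : T (lam u a) = ∑' y, a y * T (u y) := by
  unfold lam
  rw [T.map_tsum (summable_lam hu ha)]
  simp

section Matrices

variable {ι : Type*} [Fintype ι] [DecidableEq ι]

attribute [local instance] Matrix.linftyOpNormedRing Matrix.linftyOpNormedAddCommGroup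

theorem norm_entry_le_linfty {α : Type*} [NormedRing α] (X : Matrix ι ι α) (i j : ι) :
    ‖X i j‖ ≤ ‖X‖ := by
  rw [Matrix.linfty_opNorm_def]
  have h1 : ‖X i j‖₊ ≤ ∑ j, ‖X i j‖₊ :=
    Finset.single_le_sum (f := fun j => ‖X i j‖₊) (fun _ _ => zero_le) (Finset.mem_univ j)
  have h2 : (∑ j, ‖X i j‖₊) ≤ Finset.univ.sup fun i => ∑ j, ‖X i j‖₊ :=
    Finset.le_sup (f := fun i => ∑ j, ‖X i j‖₊) (Finset.mem_univ i)
  exact_mod_cast h1.trans h2

theorem linfty_le_sum {α : Type*} [NormedRing α] (X : Matrix ι ι α) :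
    ‖X‖ ≤ ∑ i, ∑ j, ‖X i j‖ := by
  rw [Matrix.linfty_opNorm_def]
  have h : (Finset.univ.sup fun i => ∑ j, ‖X i j‖₊) ≤ ∑ i, ∑ j, ‖X i j‖₊ := by
    refine Finset.sup_le (fun i _ => ?_)
    exact Finset.single_le_sum (f := fun i => ∑ j, ‖X i j‖₊) (fun _ _ => zero_le)
      (Finset.mem_univ i)
  have h' : ((Finset.univ.sup fun i => ∑ j, ‖X i j‖₊ : NNReal) : ℝ)
      ≤ ((∑ i, ∑ j, ‖X i j‖₊ : NNReal) : ℝ) := by exact_mod_cast h
  refine h'.trans (le_of_eq ?_)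
  push_cast
  rfl

/-- Generic comparison theorem. -/
theorem generic_comparison (𝔅 : Subalgebra ℂ 𝔄) (hcl : IsClosed (𝔅 : Set 𝔄)) (T : 𝔄 →L[ℂ] ℂ)
    (hT : ∀ x ∈ 𝔅, ∀ y ∈ 𝔅, T (x * y) = T (y * x))
    (u v : G →* 𝔄) (hu : ∀ y, ‖u y‖ ≤ 1) (hv : ∀ y, ‖v y‖ ≤ 1)
    (hu𝔅 : ∀ y, u y ∈ 𝔅) (hv𝔅 : ∀ y, v y ∈ 𝔅)
    {e : ι → ι → G → ℂ} (he : IsIdempotentL1 e)
    (hclose : ∑ i, ∑ j, ∑' y, ‖e i j y‖ * ‖u y - v y‖ < 1) :
    ∑ i, ∑' y, e i i y * T (u y) = ∑ i, ∑' y, e i i y * T (v y) := by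
  -- the two idempotent matrices
  let E : (w : G →* 𝔄) → (∀ y, ‖w y‖ ≤ 1) → (∀ y, w y ∈ 𝔅) → Matrix ι ι 𝔅 :=
    fun w hw hw𝔅 i j => ⟨lam w (e i j), lam_mem hw 𝔅 hcl hw𝔅 (he.summable i j)⟩
  have hidem : ∀ (w : G →* 𝔄) (hw : ∀ y, ‖w y‖ ≤ 1) (hw𝔅 : ∀ y, w y ∈ 𝔅),
      E w hw hw𝔅 * E w hw hw𝔅 = E w hw hw𝔅 := by
    intro w hw hw𝔅
    ext i j
    rw [Matrix.mul_apply]
    simp only [E, AddSubmonoidClass.coe_finsetSum, MulMemClass.coe_mul]
    have h1 : ∀ k, lam w (e i k) * lam w (e k j) = lam w (conv (e i k) (e k j)) :=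
      fun k => lam_mul w hw (he.summable i k) (he.summable k j)
    simp_rw [h1]
    rw [← lam_finset_sum hw Finset.univ (fun k => conv (e i k) (e k j))
      (fun k => summable_conv (he.summable i k) (he.summable k j))]
    congr 1
    funext g
    exact he.idem i j g
  -- the trace on matrices
  let Tr : Matrix ι ι 𝔅 →+ ℂ :=
    { toFun := fun X => ∑ i, T (X i i : 𝔄)
      map_zero' := by simp
      map_add' := by
        intro X Y
        simp [Finset.sum_add_distrib] }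
  have hTr : ∀ X Y : Matrix ι ι 𝔅, Tr (X * Y) = Tr (Y * X) := by
    intro X Y
    show ∑ i, T ((X * Y) i i : 𝔄) = ∑ i, T ((Y * X) i i : 𝔄)
    simp only [Matrix.mul_apply, AddSubmonoidClass.coe_finsetSum, MulMemClass.coe_mul, map_sum]
    rw [Finset.sum_comm]
    refine Finset.sum_congr rfl (fun k _ => Finset.sum_congr rfl (fun i _ => ?_))
    exact hT _ (X i k).2 _ (Y k i).2
  have hK : ∀ X : Matrix ι ι 𝔅, ‖Tr X‖ ≤ ((Fintype.card ι : ℝ) * ‖T‖) * ‖X‖ := by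
    intro X
    show ‖∑ i, T (X i i : 𝔄)‖ ≤ _
    calc ‖∑ i, T (X i i : 𝔄)‖ ≤ ∑ i, ‖T (X i i : 𝔄)‖ := norm_sum_le _ _
      _ ≤ ∑ _i : ι, ‖T‖ * ‖X‖ := by
          refine Finset.sum_le_sum (fun i _ => ?_)
          calc ‖T (X i i : 𝔄)‖ ≤ ‖T‖ * ‖(X i i : 𝔄)‖ := T.le_opNorm _
            _ ≤ ‖T‖ * ‖X‖ :=
              mul_le_mul_of_nonneg_left (norm_entry_le_linfty X i i) (norm_nonneg _)
      _ = ((Fintype.card ι : ℝ) * ‖T‖) * ‖X‖ := by
          simp [Finset.sum_const, mul_assoc]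
  have hdist : ‖E u hu hu𝔅 - E v hv hv𝔅‖ < 1 := by
    refine lt_of_le_of_lt (linfty_le_sum _) (lt_of_le_of_lt ?_ hclose)
    refine Finset.sum_le_sum (fun i _ => Finset.sum_le_sum (fun j _ => ?_))
    exact norm_lam_sub_le hu hv (he.summable i j)
  have hmain := trace_eq_of_norm_sub_lt_one Tr _ hK hTr (hidem u hu hu𝔅) (hidem v hv hv𝔅) hdist
  have hval : ∀ (w : G →* 𝔄) (hw : ∀ y, ‖w y‖ ≤ 1) (hw𝔅 : ∀ y, w y ∈ 𝔅),
      Tr (E w hw hw𝔅) = ∑ i, ∑' y, e i i y * T (w y) := by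
    intro w hw hw𝔅
    show ∑ i, T (lam w (e i i)) = _
    exact Finset.sum_congr rfl (fun i _ => apply_lam T hw (he.summable i i))
  rw [← hval u hu hu𝔅, ← hval v hv hv𝔅]
  exact hmain

end Matrices

end Vale.Agent.Lib.P184
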