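import Mathlib
import Vale.Agent.Lib.P184.Defs
import Vale.Agent.Lib.P184.Generic

/-!
A concrete Banach algebra carrying a bounded trace that detects a conjugacy class, together with
twisted representations of `G` attached to a bounded cocycle for the conjugation action.
-/

namespace Vale.Agent.Lib.P184

open scoped ENNReal

variable {G : Type*} [Group G]

/-- bounded functions on `G` -/
noncomputable abbrev BF (G : Type*) := lp (fun _ : G => ℂ) ∞

/-- a bounded function from a pointwise bound -/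
noncomputable def mkBF (w : G → ℂ) (M : ℝ) (h : ∀ x, ‖w x‖ ≤ M) : BF G :=
  ⟨w, memℓp_infty ⟨M, by rintro _ ⟨x, rfl⟩; exact h x⟩⟩

omit [Group G] in
@[simp] theorem mkBF_apply (w : G → ℂ) (M : ℝ) (h : ∀ x, ‖w x‖ ≤ M) (x : G) :
    mkBF w M h x = w x := rfl

omit [Group G] in
theorem norm_mkBF_le (w : G → ℂ) (M : ℝ) (hM : 0 ≤ M) (h : ∀ x, ‖w x‖ ≤ M) :
    ‖mkBF w M h‖ ≤ M := lp.norm_le_of_forall_le hM h

omit [Group G] in
theorem norm_mul_comp_le (w f : BF G) (π : G → G) (x : G) : ‖w x * f (π x)‖ ≤ ‖w‖ * ‖f‖ := by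
  rw [norm_mul]
  exact mul_le_mul (lp.norm_apply_le_norm ENNReal.top_ne_zero w x)
    (lp.norm_apply_le_norm ENNReal.top_ne_zero f _) (norm_nonneg _) (norm_nonneg _)

/-- the function `w * (f ∘ π)` -/
noncomputable def wFun (w : BF G) (π : G → G) (f : BF G) : BF G :=
  mkBF (fun x => w x * f (π x)) (‖w‖ * ‖f‖) (norm_mul_comp_le w f π)

/-- weighted composition operator `f ↦ w * (f ∘ π)` -/
noncomputable def wOp (w : BF G) (π : G → G) : BF G →L[ℂ] BF G :=
  LinearMap.mkContinuous
    { toFun := wFun w π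
      map_add' := by
        intro f g
        ext x
        simp [wFun, mul_add]
      map_smul' := by
        intro c f
        ext x
        simp [wFun]
        ring }
    ‖w‖ (fun f => norm_mkBF_le _ _ (mul_nonneg (norm_nonneg _) (norm_nonneg _))
      (norm_mul_comp_le w f π))

omit [Group G] in
@[simp] theorem wOp_apply (w : BF G) (π : G → G) (f : BF G) (x : G) :
    wOp w π f x = w x * f (π x) := rfl

omit [Group G] in
theorem norm_wOp_le (w : BF G) (π : G → G) : ‖wOp w π‖ ≤ ‖w‖ :=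
  LinearMap.mkContinuous_norm_le _ (norm_nonneg _) _

omit [Group G] in
theorem wOp_sub (w w' : BF G) (π : G → G) : wOp w π - wOp w' π = wOp (w - w') π := by
  ext f x
  simp [sub_mul]

omit [Group G] in
theorem wOp_mul (w w' : BF G) (π π' : G → G) (w'' : BF G)
    (h : ∀ x, w'' x = w x * w' (π x)) :
    wOp w π * wOp w' π' = wOp w'' (fun x => π' (π x)) := by
  ext f x
  simp [h, mul_assoc]

/-- the constant function one -/
noncomputable def oneBF (G : Type*) : BF G := mkBF (fun _ => 1) 1 (fun _ => by simp)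

omit [Group G] in
@[simp] theorem oneBF_apply (x : G) : oneBF G x = 1 := rfl

omit [Group G] in
theorem norm_oneBF_le : ‖oneBF G‖ ≤ 1 := norm_mkBF_le _ _ zero_le_one _

/-- left translation -/
noncomputable def ltr0 (y : G) : BF G →L[ℂ] BF G := wOp (oneBF G) (fun x => y⁻¹ * x)

theorem norm_ltr0_le (y : G) : ‖ltr0 y‖ ≤ 1 := (norm_wOp_le _ _).trans norm_oneBF_le

theorem ltr0_mul (y y' : G) : ltr0 y * ltr0 y' = ltr0 (y * y') := by
  unfold ltr0
  rw [wOp_mul (oneBF G) (oneBF G) _ _ (oneBF G) (by simp)]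
  congr 1
  funext x
  simp [mul_assoc]

theorem ltr0_one : ltr0 (1 : G) = 1 := by
  ext f x
  simp [ltr0]

/-- weighted conjugation operator -/
noncomputable def cj0 (w : BF G) (y : G) : BF G →L[ℂ] BF G := wOp w (fun x => y * x * y⁻¹)

theorem cj0_mul (w w' w'' : BF G) (y y' : G) (h : ∀ x, w'' x = w' x * w (y' * x * y'⁻¹)) :
    cj0 w' y' * cj0 w y = cj0 w'' (y * y') := by
  unfold cj0
  rw [wOp_mul w' w _ _ w'' h]
  congr 1
  funext x
  simp [mul_assoc]

theorem cj0_one : cj0 (oneBF G) (1 : G) = 1 := by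
  ext f x
  simp [cj0]

open Classical in
/-- indicator of a conjugacy class -/
noncomputable def ind (C : ConjClasses G) (x : G) : ℂ := if ConjClasses.mk x = C then 1 else 0

theorem norm_ind_le (C : ConjClasses G) (x : G) : ‖ind C x‖ ≤ 1 := by
  unfold ind
  split_ifs <;> simp

theorem ind_comm (C : ConjClasses G) (x y : G) : ind C (x * y) = ind C (y * x) := by
  unfold ind
  have : ConjClasses.mk (x * y) = ConjClasses.mk (y * x) := by
    rw [ConjClasses.mk_eq_mk_iff_isConj, isConj_iff]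
    exact ⟨y, by simp [mul_assoc]⟩
  rw [this]

/-- the base operator `f ↦ (s ↦ 1_C(s⁻¹) f(s⁻¹))` -/
noncomputable def baseOp0 (C : ConjClasses G) : BF G →L[ℂ] BF G :=
  wOp (mkBF (fun s => ind C s⁻¹) 1 (fun _ => norm_ind_le C _)) (fun s => s⁻¹)

/-- the bounded functional `ξ ↦ (ξ 1)(1)` on operators -/
noncomputable def ev0 (G : Type*) [Group G] : (BF G →L[ℂ] BF G) →L[ℂ] ℂ :=
  (lp.evalCLM ℂ (fun _ : G => ℂ) ∞ (1 : G)).comp (ContinuousLinearMap.apply ℂ (BF G) (oneBF G))

omit [Group G] in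
theorem evalCLM_apply' (f : BF G) (x : G) : lp.evalCLM ℂ (fun _ : G => ℂ) ∞ x f = f x := rfl

theorem ev0_formula (C : ConjClasses G) (w : BF G) (y : G) :
    ev0 G (ltr0 y * baseOp0 C * cj0 w y) = ind C y * w y := by
  simp [ev0, ltr0, cj0, baseOp0, evalCLM_apply']

/-- operators on bounded functions, as an opaque normed algebra -/
def Op (G : Type*) : Type _ := BF G →L[ℂ] BF G

noncomputable instance : NormedRing (Op G) := inferInstanceAs (NormedRing (BF G →L[ℂ] BF G))

noncomputable instance : NormedAlgebra ℂ (Op G) :=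
  inferInstanceAs (NormedAlgebra ℂ (BF G →L[ℂ] BF G))

instance : CompleteSpace (Op G) := inferInstanceAs (CompleteSpace (BF G →L[ℂ] BF G))

/-- left translation -/
noncomputable def ltr (y : G) : Op G := ltr0 y

/-- weighted conjugation -/
noncomputable def cj (w : BF G) (y : G) : Op G := cj0 w y

/-- base operator -/
noncomputable def baseOp (C : ConjClasses G) : Op G := baseOp0 C

/-- evaluation functional -/
noncomputable def ev (G : Type*) [Group G] : Op G →L[ℂ] ℂ := ev0 G

theorem norm_ltr_le (y : G) : ‖ltr y‖ ≤ 1 := norm_ltr0_le y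

theorem norm_cj_le (w : BF G) (y : G) : ‖cj w y‖ ≤ ‖w‖ := norm_wOp_le _ _

theorem ltr_mul (y y' : G) : ltr y * ltr y' = ltr (y * y') := ltr0_mul y y'

theorem ltr_one : ltr (1 : G) = 1 := ltr0_one

theorem cj_mul (w w' w'' : BF G) (y y' : G) (h : ∀ x, w'' x = w' x * w (y' * x * y'⁻¹)) :
    cj w' y' * cj w y = cj w'' (y * y') := cj0_mul w w' w'' y y' h

theorem cj_one : cj (oneBF G) (1 : G) = 1 := cj0_one

theorem cj_sub (w w' : BF G) (y : G) : cj w y - cj w' y = cj (w - w') y := wOp_sub _ _ _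

theorem ev_formula (C : ConjClasses G) (w : BF G) (y : G) :
    ev G (ltr y * baseOp C * cj w y) = ind C y * w y := ev0_formula C w y

section TwoSided

variable {R : Type*} [NormedRing R] [NormedAlgebra ℂ R]

/-- two-sided multiplication `ξ ↦ a * ξ * b` -/
noncomputable def lr (a b : R) : R →L[ℂ] R := ContinuousLinearMap.mulLeftRight ℂ R a b

theorem lr_apply (a b ξ : R) : lr a b ξ = a * ξ * b := rfl

theorem norm_lr_le (a b : R) : ‖lr a b‖ ≤ ‖a‖ * ‖b‖ :=
  ContinuousLinearMap.opNorm_mulLeftRight_apply_apply_le ℂ R _ _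

theorem lr_mul (a b a' b' : R) : lr a b * lr a' b' = lr (a * a') (b' * b) := by
  ext1 ξ
  show lr a b (lr a' b' ξ) = _
  simp only [lr_apply, mul_assoc]

theorem lr_one : lr (1 : R) 1 = 1 := by
  ext1 ξ
  simp [lr_apply]

theorem lr_sub (a b b' : R) : lr a b - lr a b' = lr a (b - b') := by
  ext1 ξ
  simp only [sub_apply, lr_apply, mul_sub]

end TwoSided

/-- operators on operators -/
abbrev Op2 (G : Type*) [Group G] := Op G →L[ℂ] Op G

/-- the generators `ξ ↦ ltr y * ξ * cj w y` -/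
noncomputable def gen (w : BF G) (y : G) : Op2 G := lr (ltr y) (cj w y)

theorem norm_gen_le (w : BF G) (y : G) : ‖gen w y‖ ≤ ‖w‖ := by
  calc ‖gen w y‖ ≤ ‖ltr y‖ * ‖cj w y‖ := norm_lr_le _ _
    _ ≤ 1 * ‖w‖ := mul_le_mul (norm_ltr_le y) (norm_cj_le _ _) (norm_nonneg _) zero_le_one
    _ = ‖w‖ := one_mul _

theorem gen_sub (w w' : BF G) (y : G) : gen w y - gen w' y = gen (w - w') y := by
  unfold gen
  rw [lr_sub, cj_sub]

theorem gen_mul (w w' w'' : BF G) (y y' : G)
    (h : ∀ x, w'' x = w' x * w (y' * x * y'⁻¹)) :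
    gen w y * gen w' y' = gen w'' (y * y') := by
  unfold gen
  rw [lr_mul, ltr_mul, cj_mul w w' w'' y y' h]

theorem gen_one : gen (oneBF G) (1 : G) = 1 := by
  unfold gen
  rw [ltr_one, cj_one, lr_one]

/-- the multiplicative monoid of generators -/
noncomputable def genMonoid (G : Type*) [Group G] : Submonoid (Op2 G) where
  carrier := {X | ∃ w y, X = gen w y}
  one_mem' := ⟨oneBF G, 1, gen_one.symm⟩
  mul_mem' := by
    rintro _ _ ⟨w, y, rfl⟩ ⟨w', y', rfl⟩
    exact ⟨wFun w' (fun x => y' * x * y'⁻¹) w, y * y', gen_mul w w' _ y y' (fun x => rfl)⟩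

/-- the closed subalgebra generated by the generators -/
noncomputable def genAlg (G : Type*) [Group G] : Subalgebra ℂ (Op2 G) :=
  (Algebra.adjoin ℂ (genMonoid G : Set (Op2 G))).topologicalClosure

theorem isClosed_genAlg : IsClosed (genAlg G : Set (Op2 G)) :=
  Subalgebra.isClosed_topologicalClosure _

theorem gen_mem_genAlg (w : BF G) (y : G) : gen w y ∈ genAlg G :=
  Subalgebra.le_topologicalClosure _ (Algebra.subset_adjoin ⟨w, y, rfl⟩)

/-- the bounded functional `X ↦ ((X baseOp) 1)(1)` -/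
noncomputable def tr (C : ConjClasses G) : Op2 G →L[ℂ] ℂ :=
  (ev G).comp (ContinuousLinearMap.apply ℂ (Op G) (baseOp C))

theorem tr_gen (C : ConjClasses G) (w : BF G) (y : G) : tr C (gen w y) = ind C y * w y :=
  ev_formula C w y

theorem tr_comm_gen (C : ConjClasses G) (X Y : Op2 G) (hX : X ∈ genMonoid G)
    (hY : Y ∈ genMonoid G) : tr C (X * Y) = tr C (Y * X) := by
  obtain ⟨w, y, rfl⟩ := hX
  obtain ⟨w', y', rfl⟩ := hY
  rw [gen_mul w w' (wFun w' (fun x => y' * x * y'⁻¹) w) y y' (fun x => rfl),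
    gen_mul w' w (wFun w (fun x => y * x * y⁻¹) w') y' y (fun x => rfl),
    tr_gen, tr_gen, ind_comm C y y']
  simp only [wFun, mkBF_apply]
  have h1 : y' * (y * y') * y'⁻¹ = y' * y := by simp [mul_assoc]
  have h2 : y * (y' * y) * y⁻¹ = y * y' := by simp [mul_assoc]
  rw [h1, h2]
  ring

/-- a bounded functional which is tracial on a submonoid is tracial on the closed subalgebra
generated by it -/
theorem trace_on_closure {𝔄 : Type*} [NormedRing 𝔄] [NormedAlgebra ℂ 𝔄] (M : Submonoid 𝔄)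
    (T : 𝔄 →L[ℂ] ℂ) (h : ∀ x ∈ M, ∀ y ∈ M, T (x * y) = T (y * x)) :
    ∀ x ∈ (Algebra.adjoin ℂ (M : Set 𝔄)).topologicalClosure,
      ∀ y ∈ (Algebra.adjoin ℂ (M : Set 𝔄)).topologicalClosure, T (x * y) = T (y * x) := by
  have hspan : ∀ x, x ∈ Algebra.adjoin ℂ (M : Set 𝔄) ↔ x ∈ Submodule.span ℂ (M : Set 𝔄) := by
    intro x
    rw [← Subalgebra.mem_toSubmodule, Algebra.adjoin_eq_span, Submonoid.closure_eq]
  have h1 : ∀ x ∈ M, ∀ y ∈ Submodule.span ℂ (M : Set 𝔄), T (x * y) = T (y * x) := by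
    intro x hx y hy
    induction hy using Submodule.span_induction with
    | mem y hy => exact h x hx y hy
    | zero => simp
    | add y z _ _ hy hz => simp [mul_add, add_mul, hy, hz]
    | smul c y _ hy => simp [hy]
  have h2 : ∀ x ∈ Submodule.span ℂ (M : Set 𝔄), ∀ y ∈ Submodule.span ℂ (M : Set 𝔄),
      T (x * y) = T (y * x) := by
    intro x hx y hy
    induction hx using Submodule.span_induction with
    | mem x hx => exact h1 x hx y hy
    | zero => simp
    | add x z _ _ hx hz => simp [mul_add, add_mul, hx, hz]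
    | smul c x _ hx => simp [hx]
  have h3 : ∀ y ∈ Algebra.adjoin ℂ (M : Set 𝔄),
      ∀ x ∈ (Algebra.adjoin ℂ (M : Set 𝔄)).topologicalClosure, T (x * y) = T (y * x) := by
    intro y hy x hx
    have hclosed : IsClosed {x : 𝔄 | T (x * y) = T (y * x)} :=
      isClosed_eq (T.continuous.comp (continuous_id.mul continuous_const))
        (T.continuous.comp (continuous_const.mul continuous_id))
    have hsub : (Algebra.adjoin ℂ (M : Set 𝔄) : Set 𝔄) ⊆ {x : 𝔄 | T (x * y) = T (y * x)} :=
      fun x hx => h2 x ((hspan x).mp hx) y ((hspan y).mp hy)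
    exact closure_minimal hsub hclosed hx
  intro x hx y hy
  have hclosed : IsClosed {y : 𝔄 | T (x * y) = T (y * x)} :=
    isClosed_eq (T.continuous.comp (continuous_const.mul continuous_id))
      (T.continuous.comp (continuous_id.mul continuous_const))
  have hsub : (Algebra.adjoin ℂ (M : Set 𝔄) : Set 𝔄) ⊆ {y : 𝔄 | T (x * y) = T (y * x)} :=
    fun y hy => h3 y hy x hx
  exact closure_minimal hsub hclosed hy

theorem tr_comm (C : ConjClasses G) : ∀ x ∈ genAlg G, ∀ y ∈ genAlg G,
    tr C (x * y) = tr C (y * x) :=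
  trace_on_closure (genMonoid G) (tr C) (fun x hx y hy => tr_comm_gen C x y hx hy)

end Vale.Agent.Lib.P184
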