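import Mathlib
import Vale.Agent.Lib.P184.Defs
import Vale.Agent.Lib.P184.Generic
import Vale.Agent.Lib.P184.Model

/-!
The cocycle criterion for the vanishing of a Hattori-Stallings coefficient.
-/

namespace Vale.Agent.Lib.P184

open scoped ENNReal

variable {G : Type*} [Group G]

/-- the unimodular weights attached to a real function -/
noncomputable def wt (Φ : G → G → ℝ) (t : ℝ) (y : G) : BF G :=
  mkBF (fun x => Complex.exp (Complex.I * ((t * Φ y x : ℝ) : ℂ))) 1 (fun x => by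
    rw [mul_comm, Complex.norm_exp_ofReal_mul_I])

theorem wt_apply (Φ : G → G → ℝ) (t : ℝ) (y x : G) :
    wt Φ t y x = Complex.exp (Complex.I * ((t * Φ y x : ℝ) : ℂ)) := rfl

theorem norm_wt_le (Φ : G → G → ℝ) (t : ℝ) (y : G) : ‖wt Φ t y‖ ≤ 1 :=
  norm_mkBF_le _ _ zero_le_one _

theorem cocycle_one {Φ : G → G → ℝ}
    (hcoc : ∀ z y c, Φ (z * y) c = Φ z (y * c * y⁻¹) + Φ y c) (c : G) : Φ 1 c = 0 := by
  have h := hcoc 1 1 c
  simp at h
  exact h

theorem cocycle_diag {Φ : G → G → ℝ}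
    (hcoc : ∀ z y c, Φ (z * y) c = Φ z (y * c * y⁻¹) + Φ y c) (z c : G) :
    Φ (z * c * z⁻¹) (z * c * z⁻¹) = Φ c c := by
  have h1 := hcoc z c c
  have h2 := hcoc (z * c * z⁻¹) z c
  have h3 : z * c * z⁻¹ * z = z * c := by simp
  have h4 : c * c * c⁻¹ = c := by simp
  rw [h3] at h2
  rw [h4] at h1
  linarith

/-- the twisted representation -/
noncomputable def twist (Φ : G → G → ℝ)
    (hcoc : ∀ z y c, Φ (z * y) c = Φ z (y * c * y⁻¹) + Φ y c) (t : ℝ) : G →* Op2 G where
  toFun y := gen (wt Φ t y) y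
  map_one' := by
    have : wt Φ t 1 = oneBF G := by
      ext x
      simp [wt_apply, cocycle_one hcoc]
    rw [this, gen_one]
  map_mul' y y' := by
    refine (gen_mul _ _ _ y y' (fun x => ?_)).symm
    rw [wt_apply, wt_apply, wt_apply, hcoc, ← Complex.exp_add]
    congr 1
    push_cast
    ring

theorem twist_apply (Φ : G → G → ℝ)
    (hcoc : ∀ z y c, Φ (z * y) c = Φ z (y * c * y⁻¹) + Φ y c) (t : ℝ) (y : G) :
    twist Φ hcoc t y = gen (wt Φ t y) y := rfl

theorem norm_twist_le (Φ : G → G → ℝ)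
    (hcoc : ∀ z y c, Φ (z * y) c = Φ z (y * c * y⁻¹) + Φ y c) (t : ℝ) (y : G) :
    ‖twist Φ hcoc t y‖ ≤ 1 := (norm_gen_le _ _).trans (norm_wt_le _ _ _)

theorem norm_twist_sub_le (Φ : G → G → ℝ)
    (hcoc : ∀ z y c, Φ (z * y) c = Φ z (y * c * y⁻¹) + Φ y c) (t : ℝ) (y : G) (M : ℝ)
    (hM : ∀ c, |Φ y c| ≤ M) : ‖twist Φ hcoc t y - twist Φ hcoc 0 y‖ ≤ |t| * M := by
  have hM0 : 0 ≤ M := (abs_nonneg _).trans (hM 1)
  rw [twist_apply, twist_apply, gen_sub]
  refine (norm_gen_le _ _).trans ?_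
  refine lp.norm_le_of_forall_le (mul_nonneg (abs_nonneg _) hM0) (fun x => ?_)
  have h1 : (wt Φ t y - wt Φ 0 y) x
      = Complex.exp (Complex.I * ((t * Φ y x : ℝ) : ℂ)) - 1 := by
    simp [wt_apply]
  rw [h1]
  calc ‖Complex.exp (Complex.I * ((t * Φ y x : ℝ) : ℂ)) - 1‖ ≤ ‖t * Φ y x‖ :=
        Real.norm_exp_I_mul_ofReal_sub_one_le
    _ = |t| * |Φ y x| := by rw [Real.norm_eq_abs, abs_mul]
    _ ≤ |t| * M := mul_le_mul_of_nonneg_left (hM x) (abs_nonneg _)

theorem hsCoeff_eq_sum {ι : Type*} [Fintype ι] {e : ι → ι → G → ℂ}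
    (he : ∀ i j, Summable fun g => ‖e i j g‖) (C : ConjClasses G) :
    hsCoeff e C = ∑ i, ∑' y, e i i y * ind C y := by
  unfold hsCoeff
  rw [tsum_subtype C.carrier (fun g => ∑ i, e i i g)]
  have h1 : ∀ x, C.carrier.indicator (fun g => ∑ i, e i i g) x = ∑ i, e i i x * ind C x := by
    intro x
    by_cases hx : x ∈ C.carrier
    · have hx' : ConjClasses.mk x = C := ConjClasses.mem_carrier_iff_mk_eq.mp hx
      simp [Set.indicator_of_mem hx, ind, hx']
    · have hx' : ¬ ConjClasses.mk x = C := fun h => hx (ConjClasses.mem_carrier_iff_mk_eq.mpr h)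
      simp [Set.indicator_of_notMem hx, ind, hx']
  simp_rw [h1]
  refine Summable.tsum_finsetSum (fun i _ => ?_)
  refine Summable.of_norm_bounded (he i i) (fun y => ?_)
  rw [norm_mul]
  calc ‖e i i y‖ * ‖ind C y‖ ≤ ‖e i i y‖ * 1 :=
        mul_le_mul_of_nonneg_left (norm_ind_le C y) (norm_nonneg _)
    _ = ‖e i i y‖ := mul_one _

/-- **Cocycle criterion.** -/
theorem cocycle_vanishing {ι : Type*} [Fintype ι] [DecidableEq ι] {e : ι → ι → G → ℂ}
    (he : IsIdempotentL1 e) (Φ : G → G → ℝ)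
    (hcoc : ∀ z y c, Φ (z * y) c = Φ z (y * c * y⁻¹) + Φ y c)
    (hbdd : ∀ y, ∃ M, ∀ c, |Φ y c| ≤ M) (g : G) (hg : Φ g g ≠ 0) :
    hsCoeff e (ConjClasses.mk g) = 0 := by
  set C := ConjClasses.mk g with hC
  set κ := Φ g g with hκ
  -- smallness of the perturbation
  have hij : ∀ i j, Filter.Tendsto
      (fun t : ℝ => ∑' y, ‖e i j y‖ * ‖twist Φ hcoc t y - twist Φ hcoc 0 y‖)
      (nhds 0) (nhds 0) := by
    intro i j
    have key := tendsto_tsum_of_dominated_convergence (𝓕 := nhds (0 : ℝ))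
      (f := fun (t : ℝ) (y : G) => ‖e i j y‖ * ‖twist Φ hcoc t y - twist Φ hcoc 0 y‖)
      (g := fun _ => (0 : ℝ)) (bound := fun y => ‖e i j y‖ * 2)
      ((he.summable i j).mul_right 2) (fun y => ?_) (Filter.Eventually.of_forall fun t y => ?_)
    · simpa using key
    · obtain ⟨M, hM⟩ := hbdd y
      have h2 : Filter.Tendsto (fun t : ℝ => ‖e i j y‖ * (|t| * M)) (nhds 0) (nhds 0) := by
        have : Filter.Tendsto (fun t : ℝ => |t|) (nhds 0) (nhds 0) := by
          simpa using (continuous_abs.tendsto (0 : ℝ))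
        simpa using (this.mul_const M).const_mul ‖e i j y‖
      refine squeeze_zero (fun t => mul_nonneg (norm_nonneg _) (norm_nonneg _)) (fun t => ?_) h2
      exact mul_le_mul_of_nonneg_left (norm_twist_sub_le Φ hcoc t y M hM) (norm_nonneg _)
    · rw [Real.norm_of_nonneg (mul_nonneg (norm_nonneg _) (norm_nonneg _))]
      refine mul_le_mul_of_nonneg_left ?_ (norm_nonneg _)
      calc ‖twist Φ hcoc t y - twist Φ hcoc 0 y‖
          ≤ ‖twist Φ hcoc t y‖ + ‖twist Φ hcoc 0 y‖ := norm_sub_le _ _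
        _ ≤ 2 := by linarith [norm_twist_le Φ hcoc t y, norm_twist_le Φ hcoc 0 y]
  have hlim : Filter.Tendsto
      (fun t : ℝ => ∑ i, ∑ j, ∑' y, ‖e i j y‖ * ‖twist Φ hcoc t y - twist Φ hcoc 0 y‖)
      (nhds 0) (nhds 0) := by
    have key := tendsto_finsetSum (Finset.univ : Finset ι)
      (fun i _ => tendsto_finsetSum (Finset.univ : Finset ι) (fun j _ => hij i j))
    simpa using key
  have hev := hlim.eventually (gt_mem_nhds (zero_lt_one : (0 : ℝ) < 1))
  obtain ⟨δ, hδ, hball⟩ := Metric.eventually_nhds_iff.mp hev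
  -- choice of the parameter
  have hκpos : 0 < |κ| := abs_pos.mpr hg
  set t := min (δ / 2) (1 / |κ|) with ht
  have htpos : 0 < t := lt_min (by linarith) (by positivity)
  have htδ : dist t 0 < δ := by
    rw [Real.dist_eq, sub_zero, abs_of_pos htpos]
    exact lt_of_le_of_lt (min_le_left _ _) (by linarith)
  have htκ : |t * κ| ≤ 1 := by
    rw [abs_mul, abs_of_pos htpos]
    calc t * |κ| ≤ (1 / |κ|) * |κ| := mul_le_mul_of_nonneg_right (min_le_right _ _) hκpos.le
      _ = 1 := by field_simp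
  have htκ0 : t * κ ≠ 0 := mul_ne_zero htpos.ne' hg
  have hexp : Complex.exp (Complex.I * ((t * κ : ℝ) : ℂ)) ≠ 1 := by
    intro h
    have h1 : Real.cos (t * κ) = 1 := by
      have := congrArg Complex.re h
      rw [mul_comm, Complex.exp_ofReal_mul_I_re] at this
      simpa using this
    have hpi : (1 : ℝ) < 2 * Real.pi := by linarith [Real.pi_gt_three]
    have h2 := (Real.cos_eq_one_iff_of_lt_of_lt (by linarith [(abs_le.mp htκ).1])
      (by linarith [(abs_le.mp htκ).2])).mp h1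
    exact htκ0 h2
  -- the comparison
  have hcomp := generic_comparison (genAlg G) isClosed_genAlg (tr C) (tr_comm C)
    (twist Φ hcoc t) (twist Φ hcoc 0) (norm_twist_le Φ hcoc t) (norm_twist_le Φ hcoc 0)
    (fun y => gen_mem_genAlg _ _) (fun y => gen_mem_genAlg _ _) he (hball htδ)
  have hval : ∀ (s : ℝ) (y : G), tr C (twist Φ hcoc s y)
      = ind C y * Complex.exp (Complex.I * ((s * κ : ℝ) : ℂ)) := by
    intro s y
    rw [twist_apply, tr_gen, wt_apply]
    by_cases hy : ConjClasses.mk y = C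
    · have : Φ y y = κ := by
        rw [hC, ConjClasses.mk_eq_mk_iff_isConj, isConj_comm, isConj_iff] at hy
        obtain ⟨z, rfl⟩ := hy
        exact cocycle_diag hcoc z g
      rw [this]
    · simp [ind, hy]
  simp_rw [hval] at hcomp
  have hS := hsCoeff_eq_sum he.summable C
  have h1 : ∑ i, ∑' y, e i i y * (ind C y * Complex.exp (Complex.I * ((t * κ : ℝ) : ℂ)))
      = hsCoeff e C * Complex.exp (Complex.I * ((t * κ : ℝ) : ℂ)) := by
    rw [hS, Finset.sum_mul]
    refine Finset.sum_congr rfl (fun i _ => ?_)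
    rw [← tsum_mul_right]
    refine tsum_congr (fun y => ?_)
    ring
  have h2 : ∑ i, ∑' y, e i i y * (ind C y * Complex.exp (Complex.I * ((0 * κ : ℝ) : ℂ)))
      = hsCoeff e C := by
    rw [hS]
    simp
  rw [h1, h2] at hcomp
  have h3 : hsCoeff e C * (Complex.exp (Complex.I * ((t * κ : ℝ) : ℂ)) - 1) = 0 := by
    rw [mul_sub, hcomp, mul_one, sub_self]
  rcases mul_eq_zero.mp h3 with h | h
  · exact h
  · exact absurd (sub_eq_zero.mp h) hexp

end Vale.Agent.Lib.P184
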