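import Mathlib
import Vale.Agent.Lib.P184.Defs
import Vale.Agent.Lib.P184.Cocycle

/-!
Characters of the centraliser dominated by a length function.
-/

namespace Vale.Agent.Lib.P184

variable {G : Type*} [Group G]

open Classical in
/-- the cocycle attached to a function `β` on `G` and an element `g` -/
noncomputable def gfCocycle (β : G → ℝ) (g : G) (y c : G) : ℝ :=
  if h : ∃ v : G, c = v * g * v⁻¹ then
    β ((Classical.choose h)⁻¹ * y⁻¹) - β ((Classical.choose h)⁻¹)
  else 0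

theorem gfCocycle_eq (β : G → ℝ) (g : G)
    (hZ : ∀ z : G, z * g = g * z → ∃ k : ℝ, ∀ u, β (z * u) = β u + k) (y v : G) :
    gfCocycle β g y (v * g * v⁻¹) = β (v⁻¹ * y⁻¹) - β v⁻¹ := by
  have h : ∃ v' : G, v * g * v⁻¹ = v' * g * v'⁻¹ := ⟨v, rfl⟩
  unfold gfCocycle
  rw [dif_pos h]
  set v₀ := Classical.choose h with hv₀
  have hv : v * g * v⁻¹ = v₀ * g * v₀⁻¹ := Classical.choose_spec h
  have hz : (v₀⁻¹ * v) * g = g * (v₀⁻¹ * v) := by
    have h1 : v * g = v₀ * g * v₀⁻¹ * v := by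
      rw [← hv]; simp
    calc (v₀⁻¹ * v) * g = v₀⁻¹ * (v * g) := by rw [mul_assoc]
      _ = v₀⁻¹ * (v₀ * g * v₀⁻¹ * v) := by rw [h1]
      _ = g * (v₀⁻¹ * v) := by simp [mul_assoc]
  obtain ⟨k, hk⟩ := hZ _ hz
  have h2 : ∀ u : G, β (v₀⁻¹ * u) = β (v⁻¹ * u) + k := by
    intro u
    have := hk (v⁻¹ * u)
    simpa [mul_assoc] using this
  have h3 := h2 y⁻¹
  have h4 := h2 1
  simp only [mul_one] at h4
  rw [h3, h4]
  ring

/-- **Criterion in terms of a function on the group.** -/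
theorem groupfunction_vanishing {ι : Type*} [Fintype ι] [DecidableEq ι] {e : ι → ι → G → ℂ}
    (he : IsIdempotentL1 e) (β : G → ℝ) (hbd : ∀ y, ∃ M, ∀ v, |β (v * y) - β v| ≤ M)
    (g : G) (k : ℝ) (hk : k ≠ 0) (hg : ∀ u, β (g * u) = β u + k)
    (hZ : ∀ z : G, z * g = g * z → ∃ k' : ℝ, ∀ u, β (z * u) = β u + k') :
    hsCoeff e (ConjClasses.mk g) = 0 := by
  refine cocycle_vanishing he (gfCocycle β g) ?_ ?_ g ?_
  · intro z y c
    by_cases h : ∃ v : G, c = v * g * v⁻¹
    · obtain ⟨v, rfl⟩ := h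
      have h1 : y * (v * g * v⁻¹) * y⁻¹ = (y * v) * g * (y * v)⁻¹ := by simp [mul_assoc]
      rw [h1, gfCocycle_eq β g hZ, gfCocycle_eq β g hZ, gfCocycle_eq β g hZ]
      simp only [mul_inv_rev, mul_assoc]
      ring
    · have h' : ¬ ∃ v : G, y * c * y⁻¹ = v * g * v⁻¹ := by
        rintro ⟨v, hv⟩
        apply h
        refine ⟨y⁻¹ * v, ?_⟩
        have : c = y⁻¹ * (y * c * y⁻¹) * y := by simp [mul_assoc]
        rw [this, hv]
        simp [mul_assoc]
      simp [gfCocycle, h, h']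
  · intro y
    obtain ⟨M, hM⟩ := hbd y⁻¹
    refine ⟨|M|, fun c => ?_⟩
    by_cases h : ∃ v : G, c = v * g * v⁻¹
    · obtain ⟨v, rfl⟩ := h
      rw [gfCocycle_eq β g hZ]
      exact (hM _).trans (le_abs_self _)
    · simp only [gfCocycle, h, dif_neg, not_false_eq_true, abs_zero]
      exact abs_nonneg _
  · have h1 : gfCocycle β g g g = β g⁻¹ - β 1 := by
      have := gfCocycle_eq β g hZ g 1
      simpa using this
    rw [h1]
    have h2 := hg g⁻¹
    rw [mul_inv_cancel] at h2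
    intro h3
    apply hk
    linarith

/-- **Characters of the centraliser dominated by a length function.** -/
theorem length_character_vanishing {ι : Type*} [Fintype ι] [DecidableEq ι] {e : ι → ι → G → ℂ}
    (he : IsIdempotentL1 e) (L : G → ℝ) (hL : ∀ x y, L (x * y) ≤ L x + L y) (g : G)
    (φ : Subgroup.centralizer {g} → ℝ) (hφ : ∀ z w, φ (z * w) = φ z + φ w)
    (hdom : ∀ z, |φ z| ≤ L z) (hg : ∀ hmem : g ∈ Subgroup.centralizer {g}, φ ⟨g, hmem⟩ ≠ 0) :
    hsCoeff e (ConjClasses.mk g) = 0 := by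
  have hφ1 : φ 1 = 0 := by
    have := hφ 1 1
    simp at this
    exact this
  have hφinv : ∀ z, φ z⁻¹ = - φ z := by
    intro z
    have := hφ z z⁻¹
    rw [mul_inv_cancel, hφ1] at this
    linarith
  -- the function
  set F : G → Subgroup.centralizer {g} → ℝ := fun u z => L ((z : G)⁻¹ * u) + φ z with hF
  have hlow : ∀ u z, - L u⁻¹ ≤ F u z := by
    intro u z
    have h1 : L ((z : G)⁻¹) ≤ L ((z : G)⁻¹ * u) + L u⁻¹ := by
      have := hL ((z : G)⁻¹ * u) u⁻¹
      simpa [mul_assoc] using this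
    have h2 : |φ z⁻¹| ≤ L ((z⁻¹ : Subgroup.centralizer {g}) : G) := hdom z⁻¹
    rw [hφinv, abs_neg] at h2
    have h3 : - L ((z : G)⁻¹) ≤ φ z := by
      have := (abs_le.mp h2).1
      simpa using this
    simp only [hF]
    linarith
  have hbdd : ∀ u, BddBelow (Set.range (F u)) := by
    intro u
    refine ⟨- L u⁻¹, ?_⟩
    rintro _ ⟨z, rfl⟩
    exact hlow u z
  set β : G → ℝ := fun u => ⨅ z, F u z with hβ
  have hstep : ∀ u y, β (u * y) ≤ β u + L y := by
    intro u y
    have h1 : ∀ z, β (u * y) ≤ F u z + L y := by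
      intro z
      refine (ciInf_le (hbdd (u * y)) z).trans ?_
      have := hL ((z : G)⁻¹ * u) y
      simp only [hF]
      rw [← mul_assoc]
      linarith
    have h2 : β (u * y) - L y ≤ β u := le_ciInf (fun z => by linarith [h1 z])
    linarith
  have hquasi : ∀ (w : Subgroup.centralizer {g}) (u : G), β ((w : G) * u) = β u + φ w := by
    intro w u
    have h1 : ∀ z, F ((w : G) * u) (w * z) = F u z + φ w := by
      intro z
      simp only [hF, hφ]
      have : ((w * z : Subgroup.centralizer {g}) : G)⁻¹ * ((w : G) * u) = (z : G)⁻¹ * u := by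
        simp [mul_assoc]
      rw [this]
      ring
    have h2 : β ((w : G) * u) = ⨅ z, F ((w : G) * u) (w * z) :=
      ((Equiv.mulLeft w).iInf_comp (g := F ((w : G) * u))).symm
    rw [h2]
    simp_rw [h1]
    exact (ciInf_add (hbdd u) (φ w)).symm
  have hgmem : g ∈ Subgroup.centralizer {g} := by
    rw [Subgroup.mem_centralizer_singleton_iff]
  refine groupfunction_vanishing he β ?_ g (φ ⟨g, hgmem⟩) (hg hgmem) ?_ ?_
  · intro y
    refine ⟨max (L y) (L y⁻¹), fun v => ?_⟩
    rw [abs_le]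
    constructor
    · have := hstep (v * y) y⁻¹
      rw [mul_inv_cancel_right] at this
      have h2 := le_max_right (L y) (L y⁻¹)
      linarith
    · have := hstep v y
      have h2 := le_max_left (L y) (L y⁻¹)
      linarith
  · intro u
    exact hquasi ⟨g, hgmem⟩ u
  · intro z hz
    have hzmem : z ∈ Subgroup.centralizer {g} := by
      rw [Subgroup.mem_centralizer_singleton_iff]
      exact hz
    exact ⟨φ ⟨z, hzmem⟩, fun u => hquasi ⟨z, hzmem⟩ u⟩

end Vale.Agent.Lib.P184
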