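import Mathlib
import Vale.Agent.Lib.P184.Defs
import Vale.Agent.Lib.P184.Length

/-!
Linear representations over fields with an absolute value: elements having an eigenvalue of
absolute value different from one.
-/

namespace Vale.Agent.Lib.P184

variable {G : Type*} [Group G]

/-- multiplicative form of the length-character criterion -/
theorem mult_character_vanishing {ι : Type*} [Fintype ι] [DecidableEq ι] {e : ι → ι → G → ℂ}
    (he : IsIdempotentL1 e) (Λ : G → ℝ) (hpos : ∀ x, 0 < Λ x)
    (hmul : ∀ x y, Λ (x * y) ≤ Λ x * Λ y) (g : G)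
    (χ : Subgroup.centralizer {g} → ℝ) (hχpos : ∀ z, 0 < χ z)
    (hχmul : ∀ z w, χ (z * w) = χ z * χ w) (C : ℝ) (d : ℕ)
    (hdom : ∀ z : Subgroup.centralizer {g}, χ z ≤ C * Λ (z : G) ^ d)
    (hg : ∀ hmem : g ∈ Subgroup.centralizer {g}, χ ⟨g, hmem⟩ ≠ 1) :
    hsCoeff e (ConjClasses.mk g) = 0 := by
  have hC : 0 < C := by
    have h1 := hdom 1
    have h2 := hχpos 1
    have h3 : 0 < Λ ((1 : Subgroup.centralizer {g}) : G) ^ d := pow_pos (hpos _) d
    by_contra hcon
    have : C * Λ ((1 : Subgroup.centralizer {g}) : G) ^ d ≤ 0 :=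
      mul_nonpos_of_nonpos_of_nonneg (not_lt.mp hcon) h3.le
    linarith
  set M : G → ℝ := fun y => Λ y + Λ y⁻¹ with hM
  have hMpos : ∀ y, 0 < M y := fun y => add_pos (hpos y) (hpos y⁻¹)
  have hMmul : ∀ x y, M (x * y) ≤ M x * M y := by
    intro x y
    have h1 := hmul x y
    have h2 := hmul y⁻¹ x⁻¹
    simp only [hM, mul_inv_rev]
    nlinarith [hpos x, hpos y, hpos x⁻¹, hpos y⁻¹, mul_pos (hpos x) (hpos y⁻¹),
      mul_pos (hpos x⁻¹) (hpos y)]
  have hup : ∀ z : Subgroup.centralizer {g}, Real.log (χ z) ≤ |Real.log C| + d * Real.log (M z) := by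
    intro z
    have h1 : Real.log (χ z) ≤ Real.log (C * Λ (z : G) ^ d) := Real.log_le_log (hχpos z) (hdom z)
    rw [Real.log_mul hC.ne' (pow_pos (hpos _) d).ne', Real.log_pow] at h1
    have h2 : Real.log (Λ (z : G)) ≤ Real.log (M z) :=
      Real.log_le_log (hpos _) (by simp only [hM]; linarith [hpos (z : G)⁻¹])
    have h3 : (d : ℝ) * Real.log (Λ (z : G)) ≤ d * Real.log (M z) :=
      mul_le_mul_of_nonneg_left h2 (Nat.cast_nonneg d)
    linarith [le_abs_self (Real.log C)]
  have hχ1 : χ 1 = 1 := by
    have h1 := hχmul 1 1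
    rw [mul_one] at h1
    have h2 := hχpos 1
    nlinarith
  refine length_character_vanishing he (fun y => |Real.log C| + d * Real.log (M y)) ?_ g
    (fun z => Real.log (χ z)) ?_ ?_ ?_
  · intro x y
    have h1 : Real.log (M (x * y)) ≤ Real.log (M x) + Real.log (M y) := by
      rw [← Real.log_mul (hMpos x).ne' (hMpos y).ne']
      exact Real.log_le_log (hMpos _) (hMmul x y)
    have h2 : (d : ℝ) * Real.log (M (x * y)) ≤ d * (Real.log (M x) + Real.log (M y)) :=
      mul_le_mul_of_nonneg_left h1 (Nat.cast_nonneg d)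
    have h3 := abs_nonneg (Real.log C)
    show |Real.log C| + d * Real.log (M (x * y))
      ≤ (|Real.log C| + d * Real.log (M x)) + (|Real.log C| + d * Real.log (M y))
    linarith
  · intro z w
    show Real.log (χ (z * w)) = Real.log (χ z) + Real.log (χ w)
    rw [hχmul, Real.log_mul (hχpos z).ne' (hχpos w).ne']
  · intro z
    show |Real.log (χ z)| ≤ |Real.log C| + d * Real.log (M z)
    rw [abs_le]
    constructor
    · have h1 := hup z⁻¹
      have h2 : Real.log (χ z⁻¹) = - Real.log (χ z) := by
        have h3 := hχmul z z⁻¹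
        rw [mul_inv_cancel, hχ1] at h3
        have h4 : Real.log (χ z * χ z⁻¹) = 0 := by rw [← h3, Real.log_one]
        rw [Real.log_mul (hχpos z).ne' (hχpos _).ne'] at h4
        linarith
      have h5 : M ((z⁻¹ : Subgroup.centralizer {g}) : G) = M (z : G) := by
        simp only [hM, Subgroup.coe_inv, inv_inv]
        ring
      rw [h2, h5] at h1
      linarith
    · exact hup z
  · intro hmem
    exact Real.log_ne_zero_of_pos_of_ne_one (hχpos _) (hg hmem)

section Linear

variable {K : Type*} [Field K] (v : AbsoluteValue K ℝ) {m : Type*} [Fintype m] [DecidableEq m]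

/-- the entrywise sum norm of a matrix -/
noncomputable def entryNorm (A : Matrix m m K) : ℝ := ∑ i, ∑ j, v (A i j)

omit [DecidableEq m] in
theorem entryNorm_nonneg (A : Matrix m m K) : 0 ≤ entryNorm v A :=
  Finset.sum_nonneg (fun _ _ => Finset.sum_nonneg (fun _ _ => v.nonneg _))

omit [DecidableEq m] in
theorem row_le_entryNorm (A : Matrix m m K) (i : m) : ∑ j, v (A i j) ≤ entryNorm v A :=
  Finset.single_le_sum (f := fun i => ∑ j, v (A i j))
    (fun _ _ => Finset.sum_nonneg (fun _ _ => v.nonneg _)) (Finset.mem_univ i)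

omit [DecidableEq m] in
theorem entryNorm_mul (A B : Matrix m m K) : entryNorm v (A * B) ≤ entryNorm v A * entryNorm v B := by
  unfold entryNorm
  calc ∑ i, ∑ k, v ((A * B) i k) ≤ ∑ i, ∑ k, ∑ j, v (A i j) * v (B j k) := by
        refine Finset.sum_le_sum (fun i _ => Finset.sum_le_sum (fun k _ => ?_))
        rw [Matrix.mul_apply]
        refine (v.sum_le _ _).trans (le_of_eq ?_)
        exact Finset.sum_congr rfl (fun j _ => v.map_mul _ _)
    _ = ∑ i, ∑ j, v (A i j) * ∑ k, v (B j k) := by
        refine Finset.sum_congr rfl (fun i _ => ?_)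
        rw [Finset.sum_comm]
        exact Finset.sum_congr rfl (fun j _ => (Finset.mul_sum _ _ _).symm)
    _ ≤ ∑ i, ∑ j, v (A i j) * entryNorm v B := by
        refine Finset.sum_le_sum (fun i _ => Finset.sum_le_sum (fun j _ => ?_))
        exact mul_le_mul_of_nonneg_left (row_le_entryNorm v B j) (v.nonneg _)
    _ = (∑ i, ∑ j, v (A i j)) * entryNorm v B := by
        rw [Finset.sum_mul]
        exact Finset.sum_congr rfl (fun i _ => (Finset.sum_mul _ _ _).symm)

/-- a linear functional applied to `A x` is bounded by a constant times the entry norm of `A` -/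
theorem functional_mulVec_le (β : (m → K) →ₗ[K] K) (x : m → K) (A : Matrix m m K) :
    v (β (A.mulVec x))
      ≤ ((∑ k, v (β fun j => if k = j then 1 else 0)) * ∑ l, v (x l)) * entryNorm v A := by
  set c : m → ℝ := fun k => v (β fun j => if k = j then 1 else 0) with hc
  have hcn : ∀ k, 0 ≤ c k := fun k => v.nonneg _
  have hck : ∀ k, c k ≤ ∑ k, c k := fun k =>
    Finset.single_le_sum (f := c) (fun k _ => hcn k) (Finset.mem_univ k)
  have hxl : ∀ l, v (x l) ≤ ∑ l, v (x l) := fun l =>
    Finset.single_le_sum (f := fun l => v (x l)) (fun l _ => v.nonneg _) (Finset.mem_univ l)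
  have hS1 : 0 ≤ ∑ k, c k := Finset.sum_nonneg (fun k _ => hcn k)
  have hS2 : 0 ≤ ∑ l, v (x l) := Finset.sum_nonneg (fun l _ => v.nonneg _)
  rw [LinearMap.pi_apply_eq_sum_univ β (A.mulVec x)]
  calc v (∑ k, A.mulVec x k • β fun j => if k = j then 1 else 0)
      ≤ ∑ k, v (A.mulVec x k • β fun j => if k = j then 1 else 0) := v.sum_le _ _
    _ = ∑ k, v (A.mulVec x k) * c k := by
        refine Finset.sum_congr rfl (fun k _ => ?_)
        rw [smul_eq_mul, v.map_mul]
    _ ≤ ∑ k, (∑ l, v (A k l) * ∑ l, v (x l)) * ∑ k, c k := by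
        refine Finset.sum_le_sum (fun k _ => ?_)
        refine mul_le_mul ?_ (hck k) (hcn k)
          (Finset.sum_nonneg (fun l _ => mul_nonneg (v.nonneg _) hS2))
        simp only [Matrix.mulVec, dotProduct]
        refine (v.sum_le _ _).trans (Finset.sum_le_sum (fun l _ => ?_))
        rw [v.map_mul]
        exact mul_le_mul_of_nonneg_left (hxl l) (v.nonneg _)
    _ = ((∑ k, c k) * ∑ l, v (x l)) * entryNorm v A := by
        unfold entryNorm
        simp only [← Finset.sum_mul]
        ring

/-- **Eigenvalues of absolute value different from one.** -/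
theorem linear_vanishing {ι : Type*} [Fintype ι] [DecidableEq ι] {e : ι → ι → G → ℂ}
    (he : IsIdempotentL1 e) (ρ : G →* Matrix m m K) (g : G) (lam : K) (x : m → K) (hx : x ≠ 0)
    (hev : (ρ g).mulVec x = lam • x) (hlam : v lam ≠ 1) :
    hsCoeff e (ConjClasses.mk g) = 0 := by
  classical
  set T : G → Module.End K (m → K) := fun y => Matrix.toLin' (ρ y) with hT
  have hTmul : ∀ y y', T (y * y') = T y * T y' := by
    intro y y'
    simp only [hT, map_mul, Matrix.toLin'_mul]
    rfl
  have hT1 : T 1 = 1 := by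
    simp only [hT, map_one, Matrix.toLin'_one]
    rfl
  set W : Submodule K (m → K) := Module.End.eigenspace (T g) lam with hW
  have hinv : ∀ z : Subgroup.centralizer {g}, ∀ w ∈ W, T (z : G) w ∈ W := by
    intro z w hw
    rw [hW, Module.End.mem_eigenspace_iff] at hw ⊢
    have hc : (z : G) * g = g * (z : G) := Subgroup.mem_centralizer_singleton_iff.mp z.2
    have h1 : T g (T (z : G) w) = (T g * T (z : G)) w := rfl
    rw [h1, ← hTmul, ← hc, hTmul]
    show T (z : G) (T g w) = _
    rw [hw, map_smul]
  set R : Subgroup.centralizer {g} → Module.End K W := fun z => (T (z : G)).restrict (hinv z) with hR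
  have hRmul : ∀ z w, R (z * w) = R z * R w := by
    intro z w
    ext u
    simp only [hR, LinearMap.coe_restrict_apply, Subgroup.coe_mul, hTmul, Module.End.mul_apply]
  have hR1 : R 1 = 1 := by
    ext u
    simp only [hR, LinearMap.coe_restrict_apply, Subgroup.coe_one, hT1, Module.End.one_apply]
  set χ : Subgroup.centralizer {g} → ℝ := fun z => v (LinearMap.det (R z)) with hχ
  have hχmul : ∀ z w, χ (z * w) = χ z * χ w := by
    intro z w
    simp only [hχ, hRmul, map_mul]
  have hχ1 : χ 1 = 1 := by
    simp only [hχ, hR1, map_one]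
  have hχpos : ∀ z, 0 < χ z := by
    intro z
    have h1 := hχmul z z⁻¹
    rw [mul_inv_cancel, hχ1] at h1
    have h2 : 0 ≤ χ z := v.nonneg _
    rcases h2.lt_or_eq with h3 | h3
    · exact h3
    · rw [← h3, zero_mul] at h1
      norm_num at h1
  -- a basis of the eigenspace and extensions of the coordinate functionals
  set d := Module.finrank K W with hd
  set b := Module.finBasis K W with hb
  choose β hβ using fun i : Fin d => LinearMap.exists_extend (b.coord i)
  set c : Fin d → Fin d → ℝ := fun i j =>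
    (∑ k, v (β i fun j' => if k = j' then 1 else 0)) * ∑ l, v ((b j : m → K) l) with hc
  have hcn : ∀ i j, 0 ≤ c i j := fun i j =>
    mul_nonneg (Finset.sum_nonneg (fun _ _ => v.nonneg _)) (Finset.sum_nonneg (fun _ _ => v.nonneg _))
  set C1 : ℝ := ∑ i, ∑ j, c i j with hC1
  have hC1n : 0 ≤ C1 := Finset.sum_nonneg (fun i _ => Finset.sum_nonneg (fun j _ => hcn i j))
  have hcle : ∀ i j, c i j ≤ C1 := by
    intro i j
    have h1 : c i j ≤ ∑ j, c i j :=
      Finset.single_le_sum (f := fun j => c i j) (fun j _ => hcn i j) (Finset.mem_univ j)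
    have h2 : ∑ j, c i j ≤ C1 :=
      Finset.single_le_sum (f := fun i => ∑ j, c i j)
        (fun i _ => Finset.sum_nonneg (fun j _ => hcn i j)) (Finset.mem_univ i)
    exact h1.trans h2
  have hentry : ∀ (z : Subgroup.centralizer {g}) (i j : Fin d),
      v (LinearMap.toMatrix b b (R z) i j) ≤ C1 * (1 + entryNorm v (ρ (z : G))) := by
    intro z i j
    have h1 : LinearMap.toMatrix b b (R z) i j = β i ((ρ (z : G)).mulVec (b j : m → K)) := by
      rw [LinearMap.toMatrix_apply]
      have h2 : b.repr (R z (b j)) i = (b.coord i) (R z (b j)) := rfl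
      rw [h2, ← hβ i]
      rfl
    rw [h1]
    have h3 := functional_mulVec_le v (β i) (b j : m → K) (ρ (z : G))
    have h4 := entryNorm_nonneg v (ρ (z : G))
    calc v (β i ((ρ (z : G)).mulVec (b j : m → K))) ≤ c i j * entryNorm v (ρ (z : G)) := h3
      _ ≤ C1 * (1 + entryNorm v (ρ (z : G))) :=
        mul_le_mul (hcle i j) (by linarith) h4 hC1n
  refine mult_character_vanishing he (fun y => 1 + entryNorm v (ρ y)) ?_ ?_ g χ hχpos hχmul
    ((Nat.factorial d : ℝ) * C1 ^ d) d ?_ ?_
  · intro y
    have := entryNorm_nonneg v (ρ y)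
    show 0 < 1 + entryNorm v (ρ y)
    linarith
  · intro y y'
    have h1 := entryNorm_mul v (ρ y) (ρ y')
    have h2 := entryNorm_nonneg v (ρ y)
    have h3 := entryNorm_nonneg v (ρ y')
    show 1 + entryNorm v (ρ (y * y')) ≤ (1 + entryNorm v (ρ y)) * (1 + entryNorm v (ρ y'))
    rw [map_mul]
    nlinarith
  · intro z
    have h1 := Matrix.det_le (abv := v) (hentry z)
    rw [LinearMap.det_toMatrix, Fintype.card_fin, nsmul_eq_mul, mul_pow] at h1
    show v (LinearMap.det (R z)) ≤ _
    linarith
  · intro hmem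
    have h1 : R ⟨g, hmem⟩ = lam • (1 : Module.End K W) := by
      refine LinearMap.ext (fun u => Subtype.ext ?_)
      have hu : T g (u : m → K) = lam • (u : m → K) := Module.End.mem_eigenspace_iff.mp u.2
      simp only [hR, LinearMap.coe_restrict_apply, LinearMap.smul_apply, Module.End.one_apply,
        Submodule.coe_smul]
      exact hu
    have h2 : χ ⟨g, hmem⟩ = v lam ^ d := by
      simp only [hχ]
      rw [h1, LinearMap.det_smul, map_one, mul_one, map_pow]
    rw [h2]
    have hdpos : d ≠ 0 := by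
      have hxW : x ∈ W := by
        rw [hW, Module.End.mem_eigenspace_iff]
        simpa [hT, Matrix.toLin'_apply] using hev
      have : 0 < Module.finrank K W :=
        Module.finrank_pos_iff_exists_ne_zero.mpr ⟨⟨x, hxW⟩, fun h => hx (congrArg Subtype.val h)⟩
      omega
    intro h3
    exact hlam ((pow_eq_one_iff_of_nonneg (v.nonneg _) hdpos).mp h3)

end Linear

end Vale.Agent.Lib.P184
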