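import Mathlib
import Vale.Agent.Lib.P184.Defs
import Vale.Agent.Lib.P184.Linear
import Vale.Agent.Lib.P184.AbsExt

/-!
Linear representations over a field with a nonarchimedean absolute value: elements whose
characteristic polynomial has a coefficient of absolute value larger than one.
-/

namespace Vale.Agent.Lib.P184

variable {G : Type*} [Group G]

theorem linear_na_vanishing {ι : Type*} [Fintype ι] [DecidableEq ι] {e : ι → ι → G → ℂ}
    (he : IsIdempotentL1 e) {K : Type*} [Field K] (v : AbsoluteValue K ℝ)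
    (hna : IsNonarchimedean v) {m : Type*} [Fintype m] [DecidableEq m]
    (ρ : G →* Matrix m m K) (g : G) (k : ℕ) (hk : 1 < v ((ρ g).charpoly.coeff k)) :
    hsCoeff e (ConjClasses.mk g) = 0 := by
  obtain ⟨E, _, _, w, σ, hw, hσ⟩ := exists_algClosed_extension v hna ⟨_, hk⟩
  set ρE : G →* Matrix m m E := (σ.mapMatrix : Matrix m m K →+* Matrix m m E).toMonoidHom.comp ρ
    with hρE
  have h1 : (ρE g).charpoly = (ρ g).charpoly.map σ := by
    simp only [hρE, MonoidHom.comp_apply]
    exact Matrix.charpoly_map (ρ g) σ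
  have h2 : 1 < w ((ρE g).charpoly.coeff k) := by
    rw [h1, Polynomial.coeff_map, hσ]
    exact hk
  obtain ⟨a, ha, ha1⟩ := exists_root_gt_one w hw _ (Matrix.charpoly_monic _) k h2
  obtain ⟨x, hx, hev⟩ := exists_eigenvector_of_isRoot _ a ha
  exact linear_vanishing w he ρE g a x hx hev (ne_of_gt ha1)

end Vale.Agent.Lib.P184
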