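import Mathlib
import Vale.Agent.Lib.P184.Defs
import Vale.Agent.Lib.P184.Linear
import Vale.Agent.Lib.P184.AbsExt
import Vale.Agent.Lib.P184.LinearNA

/-!
Rational representations: elements having an eigenvalue which is not a root of unity.
-/

namespace Vale.Agent.Lib.P184

variable {G : Type*} [Group G]

open Polynomial

/-- a rational number which is not an integer is large for some `p`-adic absolute value -/
theorem exists_padic_gt_one (q : ℚ) (hq : q.den ≠ 1) :
    ∃ (p : ℕ) (_ : Fact p.Prime), 1 < Rat.AbsoluteValue.padic p q := by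
  obtain ⟨p, hp, hpd⟩ := Nat.exists_prime_and_dvd hq
  haveI : Fact p.Prime := ⟨hp⟩
  refine ⟨p, ⟨hp⟩, ?_⟩
  have hnum : ¬ (p : ℤ) ∣ q.num := by
    intro h
    have h1 : p ∣ q.num.natAbs := Int.natCast_dvd.mp h
    have h2 := Nat.dvd_gcd h1 hpd
    rw [q.reduced] at h2
    exact hp.one_lt.ne' (Nat.dvd_one.mp h2)
  have h1 : padicNorm p (q.num : ℚ) = 1 := (padicNorm.int_eq_one_iff q.num).mpr hnum
  have h2 : padicNorm p (q.den : ℚ) < 1 := (padicNorm.nat_lt_one_iff q.den).mpr hpd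
  have h3 : padicNorm p q = padicNorm p (q.num : ℚ) / padicNorm p (q.den : ℚ) := by
    rw [← padicNorm.div, Rat.num_div_den]
  have h4 : 0 < padicNorm p (q.den : ℚ) := by
    have := padicNorm.nonzero (p := p) (q := (q.den : ℚ)) (by exact_mod_cast q.den_ne_zero)
    exact lt_of_le_of_ne (padicNorm.nonneg _) this.symm
  have h5 : 1 < padicNorm p q := by
    rw [h3, h1, lt_div_iff₀ h4]
    linarith
  rw [Rat.AbsoluteValue.padic_eq_padicNorm]
  exact_mod_cast h5

theorem isNonarchimedean_padic (p : ℕ) [Fact p.Prime] :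
    IsNonarchimedean (Rat.AbsoluteValue.padic p) := by
  intro a b
  simp only [Rat.AbsoluteValue.padic_eq_padicNorm]
  exact_mod_cast padicNorm.nonarchimedean (p := p) (q := a) (r := b)

open IntermediateField in
/-- Kronecker's theorem -/
theorem kronecker (Q : ℤ[X]) (hQ : Q.Monic) (z : ℂ) (hz0 : z ≠ 0) (hz : aeval z Q = 0)
    (hall : ∀ μ : ℂ, aeval μ Q = 0 → ‖μ‖ ≤ 1) : ∃ n : ℕ, 0 < n ∧ z ^ n = 1 := by
  have hint : IsIntegral ℤ z := ⟨Q, hQ, by simpa [aeval_def] using hz⟩
  let K := ℚ⟮z⟯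
  let : NumberField K := {
    to_charZero := ℚ⟮z⟯.charZero,
    to_finiteDimensional := adjoin.finiteDimensional hint.tower_top }
  let y : K := ⟨z, mem_adjoin_simple_self ℚ z⟩
  suffices ∃ (n : ℕ) (_ : 0 < n), y ^ n = 1 by
    obtain ⟨n, hn₀, hn₁⟩ := this
    exact ⟨n, hn₀, congrArg (algebraMap K ℂ) hn₁⟩
  refine NumberField.Embeddings.pow_eq_one_of_norm_le_one (x := y) K ℂ (Subtype.coe_ne_coe.mp hz0)
    (coe_isIntegral_iff.mp hint) fun φ ↦ hall _ ?_
  have H (ψ : K →+* ℂ) : ψ ((aeval y) Q) = (aeval (ψ y)) Q := by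
    conv_rhs => rw [← map_id (p := Q)]
    exact Q.map_aeval_eq_aeval_map (by ext; simp) y
  rw [← H, map_eq_zero_iff _ φ.injective,
    ← map_eq_zero_iff _ (FaithfulSMul.algebraMap_injective ↥K ℂ), H]
  exact hz

/-- **Rational representations.** -/
theorem rational_vanishing {ι : Type*} [Fintype ι] [DecidableEq ι] {e : ι → ι → G → ℂ}
    (he : IsIdempotentL1 e) {m : Type*} [Fintype m] [DecidableEq m]
    (ρ : G →* Matrix m m ℚ) (g : G) (z : ℂ)
    (hz : ((ρ g).charpoly.map (algebraMap ℚ ℂ)).IsRoot z) (hnot : ∀ n : ℕ, 0 < n → z ^ n ≠ 1) :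
    hsCoeff e (ConjClasses.mk g) = 0 := by
  by_cases hint : ∀ k, ((ρ g).charpoly.coeff k).den = 1
  · have hl : (ρ g).charpoly ∈ lifts (Int.castRingHom ℚ) := by
      rw [lifts_iff_coeff_lifts]
      intro k
      exact ⟨((ρ g).charpoly.coeff k).num, Rat.coe_int_num_of_den_eq_one (hint k)⟩
    obtain ⟨Q, hQmap, _, hQmonic⟩ := lifts_and_natDegree_eq_and_monic hl (Matrix.charpoly_monic _)
    set ρC : G →* Matrix m m ℂ :=
      ((algebraMap ℚ ℂ).mapMatrix : Matrix m m ℚ →+* Matrix m m ℂ).toMonoidHom.comp ρ with hρC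
    have h1 : (ρC g).charpoly = (ρ g).charpoly.map (algebraMap ℚ ℂ) := by
      simp only [hρC, MonoidHom.comp_apply]
      exact Matrix.charpoly_map (ρ g) _
    have h2 : ∀ μ : ℂ, aeval μ Q = 0 ↔ (ρC g).charpoly.IsRoot μ := by
      intro μ
      rw [h1, ← hQmap, Polynomial.map_map, IsRoot.def, eval_map, aeval_def]
      have : (algebraMap ℚ ℂ).comp (Int.castRingHom ℚ) = algebraMap ℤ ℂ := by
        ext; simp
      rw [this]
    by_contra hne
    have hall : ∀ μ : ℂ, aeval μ Q = 0 → ‖μ‖ ≤ 1 := by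
      intro μ hμ
      by_contra hcon
      obtain ⟨x, hx, hev⟩ := exists_eigenvector_of_isRoot _ μ ((h2 μ).mp hμ)
      refine hne (linear_vanishing (NormedField.toAbsoluteValue ℂ) he ρC g μ x hx hev ?_)
      show ‖μ‖ ≠ 1
      intro h
      exact hcon h.le
    have hzroot : (ρC g).charpoly.IsRoot z := by rw [h1]; exact hz
    have hz0 : z ≠ 0 := by
      rintro rfl
      obtain ⟨x, hx, hev⟩ := exists_eigenvector_of_isRoot _ 0 hzroot
      apply hx
      have h3 : (ρC g⁻¹ * ρC g).mulVec x = x := by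
        rw [← map_mul, inv_mul_cancel, map_one, Matrix.one_mulVec]
      rw [← Matrix.mulVec_mulVec, hev, zero_smul, Matrix.mulVec_zero] at h3
      exact h3.symm
    obtain ⟨n, hn, hzn⟩ := kronecker Q hQmonic z hz0 ((h2 z).mpr hzroot) hall
    exact hnot n hn hzn
  · push Not at hint
    obtain ⟨k, hk⟩ := hint
    obtain ⟨p, hp, hgt⟩ := exists_padic_gt_one _ hk
    exact linear_na_vanishing he (Rat.AbsoluteValue.padic p) (isNonarchimedean_padic p) ρ g k hgt

end Vale.Agent.Lib.P184
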