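import Mathlib
import Vale.Agent.Lib.P184.Defs
import Vale.Agent.Lib.P184.Linear
import Vale.Agent.Lib.P184.AbsExt
import Vale.Agent.Lib.P184.Rational

/-!
Representations over algebraic extensions of the rationals.
-/

namespace Vale.Agent.Lib.P184

variable {G : Type*} [Group G]

open Polynomial

/-- An algebraic number which is neither zero nor a root of unity has absolute value different from
one for some absolute value of any given algebraic extension of `ℚ` containing it. -/
theorem exists_abs_ne_one {L : Type*} [Field L] [Algebra ℚ L] [Algebra.IsAlgebraic ℚ L]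
    (lam : L) (h0 : lam ≠ 0) (hnot : ∀ n : ℕ, 0 < n → lam ^ n ≠ 1) :
    ∃ v : AbsoluteValue L ℝ, v lam ≠ 1 := by
  set f := minpoly ℚ lam with hf
  have hint : IsIntegral ℚ lam := Algebra.IsIntegral.isIntegral lam
  have hmonic : f.Monic := minpoly.monic hint
  have hirr : Irreducible f := minpoly.irreducible hint
  -- it suffices to find a root of `f` of absolute value different from one
  suffices key : ∃ (E : Type) (_ : Field E) (_ : IsAlgClosed E) (_ : Algebra ℚ E)
      (w : AbsoluteValue E ℝ) (μ : E), aeval μ f = 0 ∧ w μ ≠ 1 by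
    obtain ⟨E, _, _, _, w, μ, hμ, hw⟩ := key
    obtain ⟨φ, hφ⟩ := IntermediateField.exists_algHom_of_splits_of_aeval (F := ℚ) (E := L) (K := E)
      (fun s => ⟨Algebra.IsIntegral.isIntegral s, IsAlgClosed.splits _⟩) (x := lam) (y := μ) hμ
    refine ⟨w.comp (f := (φ : L →+* E)) φ.injective, ?_⟩
    show w (φ lam) ≠ 1
    rw [hφ]
    exact hw
  by_cases hcoef : ∀ k, (f.coeff k).den = 1
  · -- integral case
    have hl : f ∈ lifts (Int.castRingHom ℚ) := by
      rw [lifts_iff_coeff_lifts]
      intro k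
      exact ⟨(f.coeff k).num, Rat.coe_int_num_of_den_eq_one (hcoef k)⟩
    obtain ⟨Q, hQmap, _, hQmonic⟩ := lifts_and_natDegree_eq_and_monic hl hmonic
    have hQ : ∀ μ : ℂ, aeval μ Q = 0 ↔ aeval μ f = 0 := by
      intro μ
      have : Int.castRingHom ℚ = algebraMap ℤ ℚ := rfl
      rw [← hQmap, this, aeval_map_algebraMap]
    obtain ⟨z, hz⟩ := IsAlgClosed.exists_aeval_eq_zero ℂ f (degree_pos_of_irreducible hirr).ne'
    have hfz : f = minpoly ℚ z := minpoly.eq_of_irreducible_of_monic hirr hz hmonic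
    have hz0 : z ≠ 0 := by
      rintro rfl
      have h1 : f = X := by rw [hfz, minpoly.zero]
      have h2 : aeval lam f = 0 := minpoly.aeval ℚ lam
      rw [h1, aeval_X] at h2
      exact h0 h2
    have hznot : ∀ n : ℕ, 0 < n → z ^ n ≠ 1 := by
      intro n hn hzn
      have h1 : aeval z (X ^ n - 1 : ℚ[X]) = 0 := by simp [hzn]
      have h2 : f ∣ X ^ n - 1 := by rw [hfz]; exact minpoly.dvd ℚ z h1
      obtain ⟨r, hr⟩ := h2
      have h3 : aeval lam (X ^ n - 1 : ℚ[X]) = 0 := by
        rw [hr, map_mul, minpoly.aeval, zero_mul]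
      have h4 : lam ^ n = 1 := by
        simpa [sub_eq_zero] using h3
      exact hnot n hn h4
    by_contra hcon
    push Not at hcon
    have hall : ∀ μ : ℂ, aeval μ Q = 0 → ‖μ‖ ≤ 1 := by
      intro μ hμ
      have := hcon ℂ inferInstance inferInstance inferInstance (NormedField.toAbsoluteValue ℂ) μ
        ((hQ μ).mp hμ)
      exact le_of_eq this
    obtain ⟨n, hn, hzn⟩ := kronecker Q hQmonic z hz0 ((hQ z).mpr hz) hall
    exact hznot n hn hzn
  · push Not at hcoef
    obtain ⟨k, hk⟩ := hcoef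
    obtain ⟨p, hp, hgt⟩ := exists_padic_gt_one _ hk
    obtain ⟨E, i1, i2, w, σ, hw, hσ⟩ := exists_algClosed_extension (Rat.AbsoluteValue.padic p)
      (isNonarchimedean_padic p) ⟨_, hgt⟩
    letI : Algebra ℚ E := σ.toAlgebra
    have h1 : 1 < w ((f.map σ).coeff k) := by
      rw [coeff_map, hσ]
      exact hgt
    obtain ⟨μ, hμ, hμ1⟩ := exists_root_gt_one w hw (f.map σ) (hmonic.map σ) k h1
    refine ⟨E, i1, i2, σ.toAlgebra, w, μ, ?_, ne_of_gt hμ1⟩
    rw [IsRoot.def, eval_map] at hμ
    exact hμ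

/-- **Representations over algebraic extensions of the rationals.** -/
theorem algebraic_vanishing {ι : Type*} [Fintype ι] [DecidableEq ι] {e : ι → ι → G → ℂ}
    (he : IsIdempotentL1 e) {K : Type*} [Field K] [Algebra ℚ K] [Algebra.IsAlgebraic ℚ K]
    {m : Type*} [Fintype m] [DecidableEq m] (ρ : G →* Matrix m m K) (g : G) (lam : K)
    (x : m → K) (hx : x ≠ 0) (hev : (ρ g).mulVec x = lam • x)
    (hnot : ∀ n : ℕ, 0 < n → lam ^ n ≠ 1) :
    hsCoeff e (ConjClasses.mk g) = 0 := by
  have h0 : lam ≠ 0 := by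
    rintro rfl
    apply hx
    have h3 : (ρ g⁻¹ * ρ g).mulVec x = x := by
      rw [← map_mul, inv_mul_cancel, map_one, Matrix.one_mulVec]
    rw [← Matrix.mulVec_mulVec, hev, zero_smul, Matrix.mulVec_zero] at h3
    exact h3.symm
  obtain ⟨v, hv⟩ := exists_abs_ne_one lam h0 hnot
  exact linear_vanishing v he ρ g lam x hx hev hv

end Vale.Agent.Lib.P184
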