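import Mathlib

/-!
Amenability of a discrete group, in von Neumann's form: existence of a left-invariant mean on the
bounded real functions.
-/

namespace Vale.Agent.Lib.P184

/-- `f` is a bounded real function. -/
def IsBddFun {Z : Type*} (f : Z → ℝ) : Prop := ∃ M : ℝ, ∀ z, |f z| ≤ M

/-- `m` is a left-invariant mean on the bounded real functions on the group `Z`: it is linear,
positive, normalised and invariant under left translations (only its values on bounded functions
matter). -/
structure IsInvariantMean {Z : Type*} [Group Z] (m : (Z → ℝ) → ℝ) : Prop where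
  add : ∀ f f', IsBddFun f → IsBddFun f' → m (fun z => f z + f' z) = m f + m f'
  smul : ∀ (c : ℝ) f, IsBddFun f → m (fun z => c * f z) = c * m f
  nonneg : ∀ f, IsBddFun f → (∀ z, 0 ≤ f z) → 0 ≤ m f
  one : m (fun _ => 1) = 1
  invariant : ∀ (w : Z) f, IsBddFun f → m (fun z => f (w * z)) = m f

/-- A discrete group is amenable if it carries a left-invariant mean. -/
def IsAmenableGroup (Z : Type*) [Group Z] : Prop := ∃ m : (Z → ℝ) → ℝ, IsInvariantMean m

end Vale.Agent.Lib.P184
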