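import Mathlib
import Vale.Agent.Lib.P184.Defs
import Vale.Agent.Lib.P184.DefsAmenable
import Vale.Agent.Lib.P184.Length

/-!
Undistorted elements with amenable centraliser.
-/

namespace Vale.Agent.Lib.P184

variable {G : Type*} [Group G]

section Mean

variable {Z : Type*} [Group Z] {m : (Z → ℝ) → ℝ}

theorem isBddFun_const {Z : Type*} (c : ℝ) : IsBddFun (fun _ : Z => c) := ⟨|c|, fun _ => le_refl _⟩

theorem IsInvariantMean.const (hm : IsInvariantMean m) (c : ℝ) : m (fun _ => c) = c := by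
  have := hm.smul c (fun _ => 1) (isBddFun_const 1)
  simpa [hm.one] using this

theorem IsInvariantMean.le_of_le (hm : IsInvariantMean m) {f : Z → ℝ} (hf : IsBddFun f) {M : ℝ}
    (h : ∀ z, f z ≤ M) : m f ≤ M := by
  have hneg : IsBddFun (fun z => (-1 : ℝ) * f z) := by
    obtain ⟨B, hB⟩ := hf
    exact ⟨B, fun z => by simpa using hB z⟩
  have h1 := hm.add (fun _ => M) (fun z => (-1 : ℝ) * f z) (isBddFun_const M) hneg
  have h2 := hm.smul (-1) f hf
  have hb : IsBddFun (fun z => M + (-1 : ℝ) * f z) := by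
    obtain ⟨B, hB⟩ := hf
    refine ⟨|M| + B, fun z => ?_⟩
    calc |M + (-1 : ℝ) * f z| ≤ |M| + |(-1 : ℝ) * f z| := abs_add_le _ _
      _ = |M| + |f z| := by simp
      _ ≤ |M| + B := by linarith [hB z]
  have h3 := hm.nonneg (fun z => M + (-1 : ℝ) * f z) hb (fun z => by linarith [h z])
  rw [h1, h2, hm.const] at h3
  linarith

theorem IsInvariantMean.abs_le (hm : IsInvariantMean m) {f : Z → ℝ} {M : ℝ}
    (h : ∀ z, |f z| ≤ M) : |m f| ≤ M := by
  have hf : IsBddFun f := ⟨M, h⟩
  have hneg : IsBddFun (fun z => (-1 : ℝ) * f z) := ⟨M, fun z => by simpa using h z⟩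
  rw [_root_.abs_le]
  constructor
  · have h1 := hm.le_of_le hneg (M := M) (fun z => by linarith [(_root_.abs_le.mp (h z)).1])
    rw [hm.smul (-1) f hf] at h1
    linarith
  · exact hm.le_of_le hf (fun z => (_root_.abs_le.mp (h z)).2)

end Mean

section Undistorted

variable {Y : Type*} [PseudoMetricSpace Y] [MulAction G Y] [IsIsometricSMul G Y]

/-- the function `p ↦ inf_n (d(p, g ^ n o) - n l)` -/
noncomputable def infBus (g : G) (o : Y) (l : ℝ) (p : Y) : ℝ :=
  ⨅ n : ℤ, (dist p (g ^ n • o) - n * l)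

omit [IsIsometricSMul G Y] in
theorem infBus_lower (g : G) (o : Y) (l : ℝ) (hl : 0 < l)
    (hund : ∀ n : ℕ, n * l ≤ dist o (g ^ n • o)) (p : Y) (n : ℤ) :
    - dist p o ≤ dist p (g ^ n • o) - n * l := by
  rcases le_or_gt 0 n with hn | hn
  · obtain ⟨k, rfl⟩ := Int.eq_ofNat_of_zero_le hn
    have h1 := hund k
    have h2 := dist_triangle o p (g ^ k • o)
    rw [dist_comm o p] at h2
    simp only [zpow_natCast, Int.cast_natCast]
    linarith
  · have h1 : (n : ℝ) * l ≤ 0 := by
      have : (n : ℝ) < 0 := by exact_mod_cast hn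
      nlinarith
    have h2 : 0 ≤ dist p (g ^ n • o) := dist_nonneg
    have h3 : 0 ≤ dist p o := dist_nonneg
    linarith

omit [IsIsometricSMul G Y] in
theorem infBus_bdd (g : G) (o : Y) (l : ℝ) (hl : 0 < l)
    (hund : ∀ n : ℕ, n * l ≤ dist o (g ^ n • o)) (p : Y) :
    BddBelow (Set.range fun n : ℤ => dist p (g ^ n • o) - n * l) := by
  refine ⟨- dist p o, ?_⟩
  rintro _ ⟨n, rfl⟩
  exact infBus_lower g o l hl hund p n

omit [IsIsometricSMul G Y] in
theorem infBus_le (g : G) (o : Y) (l : ℝ) (hl : 0 < l)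
    (hund : ∀ n : ℕ, n * l ≤ dist o (g ^ n • o)) (p p' : Y) :
    infBus g o l p ≤ infBus g o l p' + dist p p' := by
  have h1 : ∀ n : ℤ, infBus g o l p - dist p p' ≤ dist p' (g ^ n • o) - n * l := by
    intro n
    have h2 : infBus g o l p ≤ dist p (g ^ n • o) - n * l := ciInf_le (infBus_bdd g o l hl hund p) n
    have h3 := dist_triangle p p' (g ^ n • o)
    linarith
  have := le_ciInf h1
  unfold infBus at this ⊢
  linarith

omit [IsIsometricSMul G Y] in
theorem infBus_lip (g : G) (o : Y) (l : ℝ) (hl : 0 < l)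
    (hund : ∀ n : ℕ, n * l ≤ dist o (g ^ n • o)) (p p' : Y) :
    |infBus g o l p - infBus g o l p'| ≤ dist p p' := by
  rw [abs_le]
  constructor
  · have := infBus_le g o l hl hund p' p
    rw [dist_comm] at this
    linarith
  · have := infBus_le g o l hl hund p p'
    linarith

theorem infBus_smul (g : G) (o : Y) (l : ℝ) (hl : 0 < l)
    (hund : ∀ n : ℕ, n * l ≤ dist o (g ^ n • o)) (p : Y) :
    infBus g o l (g • p) = infBus g o l p + -l := by
  unfold infBus
  rw [ciInf_add (infBus_bdd g o l hl hund p)]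
  rw [← (Equiv.addRight (1 : ℤ)).iInf_comp (g := fun n : ℤ => dist (g • p) (g ^ n • o) - n * l)]
  refine iInf_congr (fun n => ?_)
  simp only [Equiv.coe_addRight]
  rw [add_comm n 1, zpow_add, zpow_one, mul_smul, dist_smul]
  push_cast
  ring

/-- **Undistorted elements with amenable centraliser.** -/
theorem amenable_centralizer_vanishing {ι : Type*} [Fintype ι] [DecidableEq ι]
    {e : ι → ι → G → ℂ} (he : IsIdempotentL1 e) (g : G) (o : Y) (l : ℝ) (hl : 0 < l)
    (hund : ∀ n : ℕ, n * l ≤ dist o (g ^ n • o))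
    (ham : IsAmenableGroup (Subgroup.centralizer {g})) :
    hsCoeff e (ConjClasses.mk g) = 0 := by
  obtain ⟨m, hm⟩ := ham
  set B := infBus g o l with hB
  have hlip := infBus_lip g o l hl hund
  -- the auxiliary functions
  set ψ : Subgroup.centralizer {g} → Subgroup.centralizer {g} → ℝ :=
    fun w z => B (((z : G)⁻¹ * (w : G)) • o) - B ((z : G)⁻¹ • o) with hψ
  have hψb : ∀ w z, |ψ w z| ≤ dist ((w : G) • o) o := by
    intro w z
    have := hlip (((z : G)⁻¹ * (w : G)) • o) ((z : G)⁻¹ • o)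
    rw [mul_smul, dist_smul] at this
    simp only [hψ, mul_smul]
    exact this
  have hψbdd : ∀ w, IsBddFun (ψ w) := fun w => ⟨_, hψb w⟩
  refine length_character_vanishing he (fun x => dist (x • o) o) ?_ g (fun w => m (ψ w)) ?_ ?_ ?_
  · intro x y
    have h1 := dist_triangle ((x * y) • o) (x • o) o
    have h2 : dist ((x * y) • o) (x • o) = dist (y • o) o := by
      rw [mul_smul, dist_smul]
    show dist ((x * y) • o) o ≤ dist (x • o) o + dist (y • o) o
    linarith
  · intro w w'
    have h1 : ψ (w * w') = fun z => ψ w' (w⁻¹ * z) + ψ w z := by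
      funext z
      simp only [hψ, Subgroup.coe_mul, Subgroup.coe_inv, mul_inv_rev, inv_inv, mul_assoc]
      ring
    have hb : IsBddFun (fun z => ψ w' (w⁻¹ * z)) := ⟨_, fun z => hψb w' _⟩
    show m (ψ (w * w')) = m (ψ w) + m (ψ w')
    rw [h1, hm.add _ _ hb (hψbdd w), hm.invariant w⁻¹ (ψ w') (hψbdd w')]
    ring
  · intro w
    exact hm.abs_le (hψb w)
  · intro hmem
    have h1 : ψ ⟨g, hmem⟩ = fun _ => -l := by
      funext z
      have hz : (z : G)⁻¹ * g = g * (z : G)⁻¹ := by
        have h2 := Subgroup.mem_centralizer_singleton_iff.mp z.2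
        have hc : Commute (z : G) g := h2
        exact hc.inv_left.eq
      simp only [hψ]
      rw [hz, mul_smul, hB, infBus_smul g o l hl hund]
      ring
    show m (ψ ⟨g, hmem⟩) ≠ 0
    rw [h1, hm.const]
    linarith

end Undistorted

end Vale.Agent.Lib.P184
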