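import Mathlib
import Vale.Agent.Lib.P184.Defs

/-!
The statement of the `ℓ¹`-Bass conjecture for one group, and Agol's class of RFRS groups.
-/

namespace Vale.Agent.Lib.P184

/-- The `ℓ¹`-Bass conjecture for the group `G`: for every idempotent matrix `e` over `ℓ¹(G)` there
is a finite set `F` of conjugacy classes of finite-order elements such that `τ_C(e) = 0` for every
conjugacy class `C` outside `F`. -/
def L1Bass (G : Type*) [Group G] : Prop :=
  ∀ (q : ℕ) (e : Fin q → Fin q → G → ℂ), IsIdempotentL1 e →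
    ∃ F : Finset (ConjClasses G), (∀ C ∈ F, ∀ x ∈ C.carrier, IsOfFinOrder x) ∧
      ∀ C, C ∉ F → hsCoeff e C = 0

/-- Agol's RFRS groups (residually finite rationally solvable): there is a chain
`G = N 0 ≥ N 1 ≥ ...` of normal subgroups of finite index with trivial intersection such that
`N (i + 1)` contains every `x ∈ N i` having a nonzero power in the commutator subgroup of `N i`. -/
def IsRFRS (G : Type*) [Group G] : Prop :=
  ∃ N : ℕ → Subgroup G, N 0 = ⊤ ∧ (∀ i, (N i).Normal) ∧ (∀ i, (N i).FiniteIndex) ∧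
    (∀ i, N (i + 1) ≤ N i) ∧ (∀ x, (∀ i, x ∈ N i) → x = 1) ∧
    ∀ i, ∀ x ∈ N i, ∀ k : ℕ, 0 < k → x ^ k ∈ ⁅N i, N i⁆ → x ∈ N (i + 1)

end Vale.Agent.Lib.P184
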