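import Mathlib
import Vale.Agent.Lib.P184.Defs
import Vale.Agent.Lib.P184.Length

/-!
Elements of positive translation length in isometric actions on spaces satisfying the
quadrilateral inequality (in particular on spaces of nonpositive curvature in the sense of
Bruhat and Tits).
-/

namespace Vale.Agent.Lib.P184

open Filter

variable {G : Type*} [Group G]

/-- limits of bounded real sequences along an ultrafilter -/
theorem exists_ultralimit (U : Ultrafilter ℕ) (s : ℕ → ℝ) (M : ℝ) (h : ∀ n, |s n| ≤ M) :
    ∃ x, Tendsto s U (nhds x) ∧ |x| ≤ M := by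
  have hK : IsCompact (Set.Icc (-M) M) := isCompact_Icc
  have hle : ((U.map s : Ultrafilter ℝ) : Filter ℝ) ≤ principal (Set.Icc (-M) M) := by
    rw [le_principal_iff]
    refine Filter.mem_map.mpr (Filter.univ_mem' (fun n => ?_))
    exact abs_le.mp (h n)
  obtain ⟨x, hx, hlim⟩ := hK.ultrafilter_le_nhds (U.map s) hle
  exact ⟨x, hlim, abs_le.mpr hx⟩

section Quad

variable {Y : Type*} [PseudoMetricSpace Y]

/-- the basic consequence of the quadrilateral inequality -/
theorem quad_half
    (hquad : ∀ a b c d : Y, dist a c ^ 2 + dist b d ^ 2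
      ≤ dist a b ^ 2 + dist b c ^ 2 + dist c d ^ 2 + dist d a ^ 2) (p q x x' : Y) :
    ((dist p x' - dist q x') - (dist p x - dist q x)) * (dist p x + dist q x)
      ≤ (dist p q + dist x x') ^ 2 := by
  have h := hquad p q x' x
  have h1 : |dist p x' - dist q x'| ≤ dist p q := by
    have := abs_dist_sub_le p q x'
    exact this
  have h2 : |dist p x' - dist p x| ≤ dist x x' := by
    have := abs_dist_sub_le x' x p
    rw [dist_comm x' p, dist_comm x p, dist_comm x' x] at this
    exact this
  have h3 : |dist q x' - dist q x| ≤ dist x x' := by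
    have := abs_dist_sub_le x' x q
    rw [dist_comm x' q, dist_comm x q, dist_comm x' x] at this
    exact this
  rw [dist_comm x' x, dist_comm x p] at h
  have h4 : |(dist p x' - dist q x') * ((dist p x' - dist p x) + (dist q x' - dist q x))|
      ≤ dist p q * (dist x x' + dist x x') := by
    rw [abs_mul]
    refine mul_le_mul h1 ((abs_add_le _ _).trans (add_le_add h2 h3)) (abs_nonneg _) dist_nonneg
  have h5 := (abs_le.mp h4).1
  nlinarith

theorem quad_abs
    (hquad : ∀ a b c d : Y, dist a c ^ 2 + dist b d ^ 2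
      ≤ dist a b ^ 2 + dist b c ^ 2 + dist c d ^ 2 + dist d a ^ 2) (p q x x' : Y) :
    |(dist p x' - dist q x') - (dist p x - dist q x)| * (dist p x + dist q x)
      ≤ (dist p q + dist x x') ^ 2 := by
  have h1 := quad_half hquad p q x x'
  have h2 := quad_half hquad q p x x'
  rw [dist_comm q p] at h2
  rcases abs_cases ((dist p x' - dist q x') - (dist p x - dist q x)) with ⟨h, _⟩ | ⟨h, _⟩
  · rw [h]; exact h1
  · rw [h]; nlinarith

end Quad

section Main

variable {Y : Type*} [PseudoMetricSpace Y] [MulAction G Y] [IsIsometricSMul G Y]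

omit [IsIsometricSMul G Y] in
/-- the displacement sequence of an undistorted element increases by a definite amount
infinitely often -/
theorem frequently_increase (a : ℕ → ℝ) (l : ℝ) (hl : 0 < l) (hund : ∀ n : ℕ, n * l ≤ a n) :
    ∃ᶠ n in atTop, l / 2 ≤ a (n + 1) - a n := by
  intro hcon
  obtain ⟨N, hN⟩ := eventually_atTop.mp hcon
  have h1 : ∀ k : ℕ, a (N + k) ≤ a N + k * (l / 2) := by
    intro k
    induction k with
    | zero => simp
    | succ k ih =>
      have := hN (N + k) (Nat.le_add_right _ _)
      push Not at this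
      rw [← add_assoc]
      push_cast
      linarith
  obtain ⟨k, hk⟩ := exists_nat_gt ((a N - N * l) / (l / 2))
  have h2 := h1 k
  have h3 := hund (N + k)
  push_cast at h3
  rw [div_lt_iff₀ (by linarith)] at hk
  nlinarith

/-- **Positive translation length on spaces with the quadrilateral inequality.** -/
theorem quad_vanishing {ι : Type*} [Fintype ι] [DecidableEq ι]
    {e : ι → ι → G → ℂ} (he : IsIdempotentL1 e)
    (hquad : ∀ a b c d : Y, dist a c ^ 2 + dist b d ^ 2
      ≤ dist a b ^ 2 + dist b c ^ 2 + dist c d ^ 2 + dist d a ^ 2)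
    (g : G) (o : Y) (l : ℝ) (hl : 0 < l)
    (hund : ∀ n : ℕ, n * l ≤ dist o (g ^ n • o)) :
    hsCoeff e (ConjClasses.mk g) = 0 := by
  set a : ℕ → ℝ := fun n => dist o (g ^ n • o) with ha
  have hfreq := frequently_increase a l hl hund
  set S : Set ℕ := {n | l / 2 ≤ a (n + 1) - a n} with hS
  haveI hne : NeBot (atTop ⊓ principal S) := frequently_mem_iff_neBot.mp hfreq
  set U : Ultrafilter ℕ := Ultrafilter.of (atTop ⊓ principal S) with hU
  have hUle : (U : Filter ℕ) ≤ atTop ⊓ principal S := Ultrafilter.of_le _
  have hUtop : (U : Filter ℕ) ≤ atTop := hUle.trans inf_le_left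
  have hUS : S ∈ (U : Filter ℕ) := hUle (mem_inf_of_right (mem_principal_self S))
  set s : ℕ → G → ℝ := fun n z => dist (z • o) (g ^ (n + 1) • o) - a (n + 1) with hs
  have hsb : ∀ (z : G) (n : ℕ), |s n z| ≤ dist (z • o) o := by
    intro z n
    exact abs_dist_sub_le (z • o) o (g ^ (n + 1) • o)
  choose φ hφlim hφb using fun z : G => exists_ultralimit U (fun n => s n z) _ (hsb z)
  refine length_character_vanishing he (fun x => dist (x • o) o) ?_ g (fun w => φ (w : G)) ?_ ?_ ?_
  · intro x y
    have h1 := dist_triangle ((x * y) • o) (x • o) o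
    have h2 : dist ((x * y) • o) (x • o) = dist (y • o) o := by
      rw [mul_smul, dist_smul]
    show dist ((x * y) • o) o ≤ dist (x • o) o + dist (y • o) o
    linarith
  · intro z w
    show φ ((z : G) * (w : G)) = φ z + φ w
    set K : ℝ := (dist ((w : G) • o) o + dist o ((z : G)⁻¹ • o)) ^ 2 with hK
    have hbound : ∀ n : ℕ, |s n ((z : G) * (w : G)) - s n z - s n w| ≤ K / l * (1 / ((n : ℝ) + 1)) := by
      intro n
      set x := g ^ (n + 1) • o with hx
      have hq := quad_abs hquad ((w : G) • o) o x ((z : G)⁻¹ • x)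
      have e1 : dist (((z : G) * (w : G)) • o) x = dist ((w : G) • o) ((z : G)⁻¹ • x) := by
        rw [mul_smul, ← dist_smul (z : G)⁻¹, inv_smul_smul]
      have e2 : dist ((z : G) • o) x = dist o ((z : G)⁻¹ • x) := by
        rw [← dist_smul (z : G)⁻¹, inv_smul_smul]
      have hc : Commute (z : G) g := Subgroup.mem_centralizer_singleton_iff.mp z.2
      have e3 : dist x ((z : G)⁻¹ • x) = dist o ((z : G)⁻¹ • o) := by
        have : (z : G)⁻¹ * g ^ (n + 1) = g ^ (n + 1) * (z : G)⁻¹ :=
          (hc.inv_left.pow_right (n + 1)).eq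
        rw [hx, ← mul_smul, this, mul_smul, dist_smul]
      have e4 : s n ((z : G) * (w : G)) - s n z - s n w
          = (dist ((w : G) • o) ((z : G)⁻¹ • x) - dist o ((z : G)⁻¹ • x))
            - (dist ((w : G) • o) x - dist o x) := by
        simp only [hs, ha]
        rw [e1, e2]
        ring
      rw [e4]
      rw [e3] at hq
      have h5 : ((n : ℝ) + 1) * l ≤ dist ((w : G) • o) x + dist o x := by
        have := hund (n + 1)
        push_cast at this
        have h6 : 0 ≤ dist ((w : G) • o) x := dist_nonneg
        linarith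
      have hpos : 0 < ((n : ℝ) + 1) * l := by positivity
      have h7 : |(dist ((w : G) • o) ((z : G)⁻¹ • x) - dist o ((z : G)⁻¹ • x))
            - (dist ((w : G) • o) x - dist o x)| * (((n : ℝ) + 1) * l) ≤ K :=
        (mul_le_mul_of_nonneg_left h5 (abs_nonneg _)).trans hq
      have h8 : K / l * (1 / ((n : ℝ) + 1)) = K / (((n : ℝ) + 1) * l) := by
        field_simp
      rw [h8, le_div_iff₀ hpos]
      exact h7
    have hzero : Tendsto (fun n : ℕ => s n ((z : G) * (w : G)) - s n z - s n w) atTop (nhds 0) := by
      have h9 : Tendsto (fun n : ℕ => K / l * (1 / ((n : ℝ) + 1))) atTop (nhds 0) := by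
        have := (tendsto_one_div_add_atTop_nhds_zero_nat (𝕜 := ℝ)).const_mul (K / l)
        simpa using this
      exact squeeze_zero_norm hbound h9
    have hlim1 : Tendsto (fun n : ℕ => s n ((z : G) * (w : G)) - s n z - s n w) U
        (nhds (φ ((z : G) * (w : G)) - φ z - φ w)) :=
      ((hφlim _).sub (hφlim _)).sub (hφlim _)
    have := tendsto_nhds_unique hlim1 (hzero.mono_left hUtop)
    linarith
  · intro w
    exact hφb w
  · intro hmem
    show φ g ≠ 0
    have h1 : ∀ᶠ n in (U : Filter ℕ), s n g ≤ -(l / 2) := by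
      filter_upwards [hUS] with n hn
      have h2 : dist (g • o) (g ^ (n + 1) • o) = a n := by
        rw [pow_succ', mul_smul, dist_smul]
      simp only [hs]
      rw [h2]
      have : l / 2 ≤ a (n + 1) - a n := hn
      linarith
    have h3 : φ g ≤ -(l / 2) := le_of_tendsto (hφlim g) h1
    linarith

end Main

end Vale.Agent.Lib.P184
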