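import Mathlib
import Vale.Agent.Lib.P184.Defs
import Vale.Agent.Lib.P184.DefsConj
import Vale.Agent.Lib.P184.Quad

/-!
Spaces of nonpositive curvature in the sense of Bruhat and Tits (the CN inequality), and groups
acting on them properly and coboundedly.
-/

namespace Vale.Agent.Lib.P184

open Filter

variable {G : Type*} [Group G]

section CN

variable {Y : Type*} [PseudoMetricSpace Y]

/-- the CN inequality implies the quadrilateral inequality -/
theorem quad_of_cn
    (hCN : ∀ x y : Y, ∃ m : Y, ∀ p : Y,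
      dist p m ^ 2 ≤ (dist p x ^ 2 + dist p y ^ 2) / 2 - dist x y ^ 2 / 4) (a b c d : Y) :
    dist a c ^ 2 + dist b d ^ 2 ≤ dist a b ^ 2 + dist b c ^ 2 + dist c d ^ 2 + dist d a ^ 2 := by
  obtain ⟨m, hm⟩ := hCN a c
  have h1 := hm b
  have h2 := hm d
  have h3 := dist_triangle b m d
  rw [dist_comm m d] at h3
  rw [dist_comm b a] at h1
  rw [dist_comm d c] at h2
  have h4 : 0 ≤ dist b d := dist_nonneg
  have h5 : dist b d ^ 2 ≤ (dist b m + dist d m) ^ 2 := by
    apply pow_le_pow_left₀ h4 h3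
  nlinarith [sq_nonneg (dist b m - dist d m)]

variable [MulAction G Y] [IsIsometricSMul G Y]

/-- the midpoint of `p` and `g p` is moved by at most half of the displacement of `g ^ 2` -/
theorem cn_half
    (hCN : ∀ x y : Y, ∃ m : Y, ∀ p : Y,
      dist p m ^ 2 ≤ (dist p x ^ 2 + dist p y ^ 2) / 2 - dist x y ^ 2 / 4) (g : G) (p : Y) :
    ∃ m : Y, dist m (g • m) ≤ dist p (g ^ 2 • p) / 2 := by
  obtain ⟨m, hm⟩ := hCN p (g • p)
  refine ⟨m, ?_⟩
  -- `g m` is a midpoint of `g p` and `g ^ 2 p`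
  have hm' : ∀ q : Y, dist q (g • m) ^ 2
      ≤ (dist q (g • p) ^ 2 + dist q (g ^ 2 • p) ^ 2) / 2 - dist p (g • p) ^ 2 / 4 := by
    intro q
    have := hm (g⁻¹ • q)
    have e1 : dist (g⁻¹ • q) m = dist q (g • m) := by
      rw [← dist_smul g, smul_inv_smul]
    have e2 : dist (g⁻¹ • q) p = dist q (g • p) := by
      rw [← dist_smul g, smul_inv_smul]
    have e3 : dist (g⁻¹ • q) (g • p) = dist q (g ^ 2 • p) := by
      rw [← dist_smul g, smul_inv_smul, pow_two, mul_smul]
    rw [e1, e2, e3] at this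
    exact this
  have h1 := hm' m
  have h2 := hm (g • p)
  have h3 := hm (g ^ 2 • p)
  have e4 : dist (g ^ 2 • p) (g • p) = dist p (g • p) := by
    rw [pow_two, mul_smul, dist_smul, dist_comm]
  rw [dist_self, dist_comm (g • p) p, dist_comm (g • p) m] at h2
  rw [e4, dist_comm (g ^ 2 • p) m, dist_comm (g ^ 2 • p) p] at h3
  have h4 : dist m (g • m) ^ 2 ≤ (dist p (g ^ 2 • p) / 2) ^ 2 := by nlinarith
  exact abs_le_of_sq_le_sq' h4 (by positivity) |>.2

/-- the infimal displacement -/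
noncomputable def minDisp (Y : Type*) [PseudoMetricSpace Y] [MulAction G Y] (g : G) : ℝ :=
  ⨅ p : Y, dist p (g • p)

omit [IsIsometricSMul G Y] in
theorem minDisp_bdd (g : G) : BddBelow (Set.range fun p : Y => dist p (g • p)) :=
  ⟨0, by rintro _ ⟨p, rfl⟩; exact dist_nonneg⟩

omit [IsIsometricSMul G Y] in
theorem minDisp_le (g : G) (p : Y) : minDisp Y g ≤ dist p (g • p) :=
  ciInf_le (minDisp_bdd g) p

omit [IsIsometricSMul G Y] in
theorem minDisp_nonneg [Nonempty Y] (g : G) : 0 ≤ minDisp Y g :=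
  le_ciInf (fun _ => dist_nonneg)

theorem two_mul_minDisp_le [Nonempty Y]
    (hCN : ∀ x y : Y, ∃ m : Y, ∀ p : Y,
      dist p m ^ 2 ≤ (dist p x ^ 2 + dist p y ^ 2) / 2 - dist x y ^ 2 / 4) (g : G) :
    2 * minDisp Y g ≤ minDisp Y (g ^ 2) := by
  refine le_ciInf (fun p => ?_)
  obtain ⟨m, hm⟩ := cn_half hCN g p
  have := minDisp_le (Y := Y) g m
  linarith

theorem pow_two_mul_minDisp_le [Nonempty Y]
    (hCN : ∀ x y : Y, ∃ m : Y, ∀ p : Y,
      dist p m ^ 2 ≤ (dist p x ^ 2 + dist p y ^ 2) / 2 - dist x y ^ 2 / 4) (g : G) (k : ℕ) :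
    (2 : ℝ) ^ k * minDisp Y g ≤ minDisp Y (g ^ 2 ^ k) := by
  induction k with
  | zero => simp
  | succ k ih =>
    have := two_mul_minDisp_le hCN (g ^ 2 ^ k)
    rw [← pow_mul, ← pow_succ] at this
    rw [pow_succ]
    linarith

theorem subadditive_disp (g : G) (o : Y) : Subadditive (fun n : ℕ => dist o (g ^ n • o)) := by
  intro m n
  have h1 := dist_triangle o (g ^ m • o) (g ^ (m + n) • o)
  have h2 : dist (g ^ m • o) (g ^ (m + n) • o) = dist o (g ^ n • o) := by
    rw [pow_add, mul_smul, dist_smul]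
  show dist o (g ^ (m + n) • o) ≤ dist o (g ^ m • o) + dist o (g ^ n • o)
  linarith

/-- in a CN space the displacement of `g ^ n` is at least `n` times the infimal displacement -/
theorem mul_minDisp_le
    (hCN : ∀ x y : Y, ∃ m : Y, ∀ p : Y,
      dist p m ^ 2 ≤ (dist p x ^ 2 + dist p y ^ 2) / 2 - dist x y ^ 2 / 4) (g : G) (o : Y) (n : ℕ) :
    n * minDisp Y g ≤ dist o (g ^ n • o) := by
  haveI : Nonempty Y := ⟨o⟩
  rcases Nat.eq_zero_or_pos n with rfl | hn
  · simp
  have hsub := subadditive_disp g o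
  have hbdd : BddBelow (Set.range fun n : ℕ => dist o (g ^ n • o) / n) :=
    ⟨0, by rintro _ ⟨k, rfl⟩; positivity⟩
  have hlim := hsub.tendsto_lim hbdd
  have hsubseq : Tendsto (fun k : ℕ => 2 ^ k) atTop atTop :=
    tendsto_pow_atTop_atTop_of_one_lt (by norm_num)
  have hlim2 := hlim.comp hsubseq
  have hge : minDisp Y g ≤ hsub.lim := by
    refine ge_of_tendsto' hlim2 (fun k => ?_)
    have h1 := pow_two_mul_minDisp_le hCN g k
    have h2 := minDisp_le (Y := Y) (g ^ 2 ^ k) o
    simp only [Function.comp]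
    rw [le_div_iff₀ (by positivity)]
    push_cast
    linarith
  have h3 := hsub.lim_le_div hbdd hn.ne'
  rw [le_div_iff₀ (by exact_mod_cast hn)] at h3
  nlinarith

end CN

section Geometric

variable {Y : Type*} [PseudoMetricSpace Y] [MulAction G Y] [IsIsometricSMul G Y]

theorem dist_pow_smul_le (g : G) (p : Y) (j : ℕ) : dist p (g ^ j • p) ≤ j * dist p (g • p) := by
  induction j with
  | zero => simp
  | succ j ih =>
    have h1 := subadditive_disp g p j 1
    simp only [pow_one] at h1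
    push_cast
    linarith

/-- conjugating into a bounded region -/
theorem dist_conj_le (o p : Y) (h k : G) (R0 r : ℝ) (hp : dist (h • o) p ≤ R0)
    (hk : dist p (k • p) ≤ r) : dist ((h⁻¹ * k * h) • o) o ≤ 2 * R0 + r := by
  have e1 : dist ((h⁻¹ * k * h) • o) o = dist (k • h • o) (h • o) := by
    rw [mul_smul, mul_smul, ← dist_smul h, smul_inv_smul]
  rw [e1]
  have h1 := dist_triangle4 (k • h • o) (k • p) p (h • o)
  rw [dist_smul, dist_comm (k • p) p, dist_comm p (h • o)] at h1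
  linarith

theorem minDisp_pos (o : Y) (hproper : ∀ R : ℝ, {h : G | dist (h • o) o ≤ R}.Finite)
    (R0 : ℝ) (hcob : ∀ p : Y, ∃ h : G, dist (h • o) p ≤ R0) (g : G) (hg : ¬ IsOfFinOrder g) :
    0 < minDisp Y g := by
  haveI : Nonempty Y := ⟨o⟩
  by_contra hcon
  have h0 : minDisp Y g = 0 := le_antisymm (not_lt.mp hcon) (minDisp_nonneg g)
  set F := (hproper (2 * R0 + 1)).toFinset with hF
  set n := F.card with hn
  have hlt : (⨅ p : Y, dist p (g • p)) < 1 / ((n : ℝ) + 1) := by
    have : minDisp Y g < 1 / ((n : ℝ) + 1) := by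
      rw [h0]; positivity
    exact this
  obtain ⟨p, hp⟩ := exists_lt_of_ciInf_lt hlt
  obtain ⟨h, hh⟩ := hcob p
  have hmaps : ∀ j ∈ Finset.range (n + 1), h⁻¹ * g ^ j * h ∈ F := by
    intro j hj
    rw [hF, Set.Finite.mem_toFinset]
    refine dist_conj_le o p h (g ^ j) R0 1 hh ?_
    have h1 := dist_pow_smul_le g p j
    have h2 : (j : ℝ) ≤ n := by
      have := Finset.mem_range.mp hj
      exact_mod_cast Nat.lt_succ_iff.mp this
    have h3 : (j : ℝ) * dist p (g • p) ≤ ((n : ℝ) + 1) * (1 / ((n : ℝ) + 1)) := by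
      apply mul_le_mul (by linarith) hp.le dist_nonneg (by positivity)
    have h4 : ((n : ℝ) + 1) * (1 / ((n : ℝ) + 1)) = 1 := by field_simp
    linarith
  have hinj : Set.InjOn (fun j : ℕ => h⁻¹ * g ^ j * h) (Finset.range (n + 1) : Set ℕ) := by
    intro i _ j _ hij
    have h1 : g ^ i = g ^ j := by
      have := mul_right_cancel hij
      exact mul_left_cancel this
    exact (injective_pow_iff_not_isOfFinOrder.mpr hg) h1
  have hcard := Finset.card_le_card_of_injOn _ hmaps hinj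
  rw [Finset.card_range] at hcard
  omega

/-- elements of finite order almost fix a point of a CN space -/
theorem exists_almost_fixed
    (hCN : ∀ x y : Y, ∃ m : Y, ∀ p : Y,
      dist p m ^ 2 ≤ (dist p x ^ 2 + dist p y ^ 2) / 2 - dist x y ^ 2 / 4) (o : Y) (h : G)
    (hh : IsOfFinOrder h) : ∃ x : Y, dist x (h • x) ≤ 1 := by
  haveI : Nonempty Y := ⟨o⟩
  set n := orderOf h with hn
  have hnpos : 0 < n := hh.orderOf_pos
  set f : Y → ℝ := fun x => ∑ i ∈ Finset.range n, dist (h ^ i • o) x ^ 2 with hf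
  have hbdd : BddBelow (Set.range f) :=
    ⟨0, by rintro _ ⟨x, rfl⟩; exact Finset.sum_nonneg (fun i _ => by positivity)⟩
  obtain ⟨x, hx⟩ := exists_lt_of_ciInf_lt (show (⨅ x, f x) < (⨅ x, f x) + 1 / 4 by linarith)
  have hinv : f (h • x) = f x := by
    have h1 : f x = ∑ i ∈ Finset.range n, dist (h ^ (i + 1) • o) (h • x) ^ 2 := by
      refine Finset.sum_congr rfl (fun i _ => ?_)
      rw [pow_succ' h i, mul_smul, dist_smul]
    have h2 := Finset.sum_range_succ (fun i => dist (h ^ i • o) (h • x) ^ 2) n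
    have h3 := Finset.sum_range_succ' (fun i => dist (h ^ i • o) (h • x) ^ 2) n
    have h4 : h ^ n = 1 := pow_orderOf_eq_one h
    rw [h4] at h2
    simp only [pow_zero] at h3
    rw [h1]
    simp only [hf]
    linarith
  obtain ⟨m, hm⟩ := hCN x (h • x)
  have hfm : f m ≤ (f x + f (h • x)) / 2 - n * (dist x (h • x) ^ 2 / 4) := by
    have h1 : f m ≤ ∑ i ∈ Finset.range n, ((dist (h ^ i • o) x ^ 2 + dist (h ^ i • o) (h • x) ^ 2) / 2
        - dist x (h • x) ^ 2 / 4) := Finset.sum_le_sum (fun i _ => hm _)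
    have h2 : ∑ i ∈ Finset.range n, ((dist (h ^ i • o) x ^ 2 + dist (h ^ i • o) (h • x) ^ 2) / 2
        - dist x (h • x) ^ 2 / 4) = (f x + f (h • x)) / 2 - n * (dist x (h • x) ^ 2 / 4) := by
      rw [Finset.sum_sub_distrib, ← Finset.sum_div, Finset.sum_add_distrib, Finset.sum_const,
        Finset.card_range, nsmul_eq_mul]
    linarith
  have hlow : (⨅ x, f x) ≤ f m := ciInf_le hbdd m
  rw [hinv] at hfm
  have hn1 : (1 : ℝ) ≤ n := by exact_mod_cast hnpos
  refine ⟨x, ?_⟩
  have h5 : dist x (h • x) ^ 2 ≤ 1 ^ 2 := by nlinarith [sq_nonneg (dist x (h • x))]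
  exact abs_le_of_sq_le_sq' h5 (by norm_num) |>.2

/-- **The conjecture for groups acting properly and coboundedly on CN spaces.** -/
theorem l1Bass_of_cn
    (hCN : ∀ x y : Y, ∃ m : Y, ∀ p : Y,
      dist p m ^ 2 ≤ (dist p x ^ 2 + dist p y ^ 2) / 2 - dist x y ^ 2 / 4) (o : Y)
    (hproper : ∀ R : ℝ, {h : G | dist (h • o) o ≤ R}.Finite)
    (R0 : ℝ) (hcob : ∀ p : Y, ∃ h : G, dist (h • o) p ≤ R0) : L1Bass G := by
  classical
  intro q e he
  refine ⟨((hproper (2 * R0 + 1)).toFinset.filter IsOfFinOrder).image ConjClasses.mk, ?_, ?_⟩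
  · intro C hC x hx
    obtain ⟨k, hk, rfl⟩ := Finset.mem_image.mp hC
    have hk2 := (Finset.mem_filter.mp hk).2
    rw [ConjClasses.mem_carrier_iff_mk_eq, ConjClasses.mk_eq_mk_iff_isConj] at hx
    obtain ⟨c, hc⟩ := isConj_iff.mp hx.symm
    have := (MulAut.conj c).toMonoidHom.isOfFinOrder hk2
    simpa [MulAut.conj_apply, hc] using this
  · intro C hC
    obtain ⟨g, rfl⟩ := ConjClasses.exists_rep C
    by_cases hg : IsOfFinOrder g
    · exfalso
      apply hC
      obtain ⟨x, hx⟩ := exists_almost_fixed hCN o g hg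
      obtain ⟨h, hh⟩ := hcob x
      refine Finset.mem_image.mpr ⟨h⁻¹ * g * h, ?_, ?_⟩
      · refine Finset.mem_filter.mpr ⟨?_, ?_⟩
        · rw [Set.Finite.mem_toFinset]
          exact dist_conj_le o x h g R0 1 hh hx
        · have := (MulAut.conj h⁻¹).toMonoidHom.isOfFinOrder hg
          simpa [MulAut.conj_apply] using this
      · rw [ConjClasses.mk_eq_mk_iff_isConj]
        refine isConj_iff.mpr ⟨h, ?_⟩
        group
    · exact quad_vanishing he (quad_of_cn hCN) g o (minDisp Y g)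
        (minDisp_pos o hproper R0 hcob g hg) (mul_minDisp_le hCN g o)

end Geometric

end Vale.Agent.Lib.P184
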