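import Mathlib
import Vale.Agent.Lib.P184.AbsExt

/-!
Existence of nonarchimedean absolute values which are large at a given transcendental element.
-/

namespace Vale.Agent.Lib.P184

open MvPolynomial

section Degree

open scoped Classical

variable (ι F : Type*) [Field F]

/-- the valuation `f ↦ 2 ^ (total degree of f)` on a polynomial ring over a field -/
noncomputable def degVal : Valuation (MvPolynomial ι F) NNReal where
  toFun f := if f = 0 then 0 else 2 ^ f.totalDegree
  map_zero' := by simp
  map_one' := by simp
  map_mul' f g := by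
    by_cases hf : f = 0
    · simp [hf]
    by_cases hg : g = 0
    · simp [hg]
    simp only [hf, hg, mul_eq_zero, or_self, if_false]
    rw [totalDegree_mul_of_isDomain hf hg, pow_add]
  map_add_le_max' f g := by
    by_cases hf : f = 0
    · simp [hf]
    by_cases hg : g = 0
    · simp [hg]
    by_cases hfg : f + g = 0
    · simp [hfg]
    simp only [hf, hg, hfg, if_false]
    have h := totalDegree_add f g
    rcases le_max_iff.mp h with h1 | h1
    · exact le_max_of_le_left (pow_le_pow_right₀ (by norm_num) h1)
    · exact le_max_of_le_right (pow_le_pow_right₀ (by norm_num) h1)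

theorem degVal_ne_zero {f : MvPolynomial ι F} (hf : f ≠ 0) : degVal ι F f ≠ 0 := by
  show (if f = 0 then (0 : NNReal) else 2 ^ f.totalDegree) ≠ 0
  simp [hf]

theorem degVal_X (i : ι) : degVal ι F (X i) = 2 := by
  show (if (X i : MvPolynomial ι F) = 0 then (0 : NNReal) else 2 ^ (X i : MvPolynomial ι F).totalDegree) = 2
  simp [X_ne_zero]

theorem degVal_supp : nonZeroDivisors (MvPolynomial ι F) ≤ (degVal ι F).supp.primeCompl := by
  intro s hs h
  exact degVal_ne_zero ι F (nonZeroDivisors.ne_zero hs) h

/-- its extension to the field of rational functions -/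
noncomputable def degValFrac : Valuation (FractionRing (MvPolynomial ι F)) NNReal :=
  (degVal ι F).extendToLocalization (degVal_supp ι F) _

/-- the corresponding absolute value -/
noncomputable def degAbs : AbsoluteValue (FractionRing (MvPolynomial ι F)) ℝ where
  toFun x := (degValFrac ι F x : ℝ)
  map_mul' x y := by simp
  nonneg' x := NNReal.coe_nonneg _
  eq_zero' x := by simp
  add_le' x y := by
    have h := (degValFrac ι F).map_add x y
    have h2 : max (degValFrac ι F x) (degValFrac ι F y) ≤ degValFrac ι F x + degValFrac ι F y :=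
      max_le (le_add_of_nonneg_right (zero_le)) (le_add_of_nonneg_left (zero_le))
    exact_mod_cast h.trans h2

theorem isNonarchimedean_degAbs : IsNonarchimedean (degAbs ι F) := by
  intro x y
  have h := (degValFrac ι F).map_add x y
  show ((degValFrac ι F (x + y) : NNReal) : ℝ) ≤ max ((degValFrac ι F x : NNReal) : ℝ) (degValFrac ι F y : NNReal)
  exact_mod_cast h

theorem degAbs_X (i : ι) : degAbs ι F (algebraMap _ _ (X i : MvPolynomial ι F)) = 2 := by
  show ((degValFrac ι F (algebraMap _ _ (X i : MvPolynomial ι F)) : NNReal) : ℝ) = 2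
  rw [degValFrac, Valuation.extendToLocalization_apply_map_apply, degVal_X]
  norm_num

end Degree

/-- A transcendental element is large for some nonarchimedean absolute value. -/
theorem exists_na_abs_of_transcendental {F K : Type*} [Field F] [Field K] [Algebra F K] (a : K)
    (ha : Transcendental F a) :
    ∃ v : AbsoluteValue K ℝ, IsNonarchimedean v ∧ 1 < v a := by
  have hs : AlgebraicIndepOn F id ({a} : Set K) :=
    (algebraicIndependent_singleton_iff (⟨a, rfl⟩ : ({a} : Set K))).mpr ha
  obtain ⟨t, hat, ht⟩ := exists_isTranscendenceBasis_superset hs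
  have hx : AlgebraicIndependent F ((↑) : t → K) := ht.1
  set L := IntermediateField.adjoin F (Set.range ((↑) : t → K)) with hL
  set iso := hx.aevalEquivField with hiso
  set i0 : t := ⟨a, hat rfl⟩ with hi0
  set vL : AbsoluteValue L ℝ :=
    (degAbs t F).comp (f := (iso.symm : L →+* FractionRing (MvPolynomial t F))) iso.symm.injective
    with hvL
  have hvLna : IsNonarchimedean vL := by
    intro x y
    show degAbs t F (iso.symm (x + y)) ≤ max (degAbs t F (iso.symm x)) (degAbs t F (iso.symm y))
    rw [map_add]
    exact isNonarchimedean_degAbs t F _ _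
  set aL : L := iso (algebraMap _ _ (X i0 : MvPolynomial t F)) with haL
  have haLcoe : (aL : K) = a := by
    rw [haL, hiso, AlgebraicIndependent.aevalEquivField_algebraMap_apply_coe]
    simp [hi0]
  have hvLa : vL aL = 2 := by
    show degAbs t F (iso.symm aL) = 2
    rw [haL, AlgEquiv.symm_apply_apply, degAbs_X]
  obtain ⟨E, _, _, w, σ, hw, hσ⟩ := exists_algClosed_extension vL hvLna ⟨aL, by rw [hvLa]; norm_num⟩
  letI : Algebra L E := σ.toAlgebra
  haveI : Algebra.IsAlgebraic L K := ht.isAlgebraic_field
  let σ' : K →ₐ[L] E := IsAlgClosed.lift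
  refine ⟨w.comp (f := (σ' : K →+* E)) σ'.injective, ?_, ?_⟩
  · intro x y
    show w (σ' (x + y)) ≤ max (w (σ' x)) (w (σ' y))
    rw [map_add]
    exact hw _ _
  · show 1 < w (σ' a)
    have h1 : σ' a = σ aL := by
      rw [← haLcoe]
      exact σ'.commutes aL
    rw [h1, hσ, hvLa]
    norm_num

end Vale.Agent.Lib.P184
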