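import Mathlib
import Vale.Agent.Lib.P184.Defs
import Vale.Agent.Lib.P184.LinearNA
import Vale.Agent.Lib.P184.TransAbs

/-!
Linear representations in positive characteristic.
-/

namespace Vale.Agent.Lib.P184

variable {G : Type*} [Group G]

open Polynomial

/-- An invertible matrix whose characteristic polynomial has coefficients algebraic over a finite
field has finite order. -/
theorem isOfFinOrder_of_algebraic_charpoly {F K : Type*} [Field F] [Finite F] [Field K]
    [Algebra F K] {m : Type*} [Fintype m] [DecidableEq m] (A : Matrix m m K) (hA : IsUnit A)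
    (halg : ∀ k, IsAlgebraic F (A.charpoly.coeff k)) : IsOfFinOrder A := by
  set P := A.charpoly with hP
  set k0 := IntermediateField.adjoin F (P.coeffs : Set K) with hk0
  haveI : FiniteDimensional F k0 := by
    apply IntermediateField.finiteDimensional_adjoin
    intro x hx
    obtain ⟨k, _, rfl⟩ := Polynomial.mem_coeffs_iff.mp (Finset.mem_coe.mp hx)
    exact (halg k).isIntegral
  haveI : Finite k0 := Module.finite_of_finite F
  have hl : P ∈ lifts (algebraMap k0 K) := by
    rw [lifts_iff_coeffs_subset_range]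
    intro x hx
    exact ⟨⟨x, IntermediateField.subset_adjoin F _ hx⟩, rfl⟩
  obtain ⟨P0, hP0map, _, hP0monic⟩ := lifts_and_natDegree_eq_and_monic hl (Matrix.charpoly_monic A)
  have hP0A : aeval A P0 = 0 := by
    rw [← aeval_map_algebraMap K, hP0map]
    exact Matrix.aeval_self_charpoly A
  set n := P0.natDegree with hn
  have hmem : ∀ j : ℕ, (X ^ j %ₘ P0) ∈ degreeLT k0 n := by
    intro j
    rw [mem_degreeLT]
    calc (X ^ j %ₘ P0).degree < P0.degree := degree_modByMonic_lt _ hP0monic
      _ = n := degree_eq_natDegree hP0monic.ne_zero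
  haveI : Finite (degreeLT k0 n) := Finite.of_equiv _ (degreeLTEquiv k0 n).toEquiv.symm
  obtain ⟨i, j, hij, hfij⟩ := Finite.exists_ne_map_eq_of_infinite
    (fun j : ℕ => (⟨X ^ j %ₘ P0, hmem j⟩ : degreeLT k0 n))
  have hpow : ∀ j : ℕ, A ^ j = aeval A (X ^ j %ₘ P0) := by
    intro j
    have h1 := modByMonic_add_div (X ^ j : k0[X]) P0
    have h2 : aeval A (X ^ j : k0[X]) = A ^ j := by simp
    rw [← h2]
    conv_lhs => rw [← h1]
    rw [map_add, map_mul, hP0A, zero_mul, add_zero]
  have heq : A ^ i = A ^ j := by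
    rw [hpow i, hpow j]
    exact congrArg (fun r : degreeLT k0 n => aeval A (r : k0[X])) hfij
  rw [isOfFinOrder_iff_pow_eq_one]
  rcases lt_or_gt_of_ne hij with h | h
  · refine ⟨j - i, by omega, ?_⟩
    have h3 : A ^ i * A ^ (j - i) = A ^ i * 1 := by
      rw [← pow_add, mul_one, heq]
      congr 1
      omega
    exact (hA.pow i).mul_left_cancel h3
  · refine ⟨i - j, by omega, ?_⟩
    have h3 : A ^ j * A ^ (i - j) = A ^ j * 1 := by
      rw [← pow_add, mul_one, ← heq]
      congr 1
      omega
    exact (hA.pow j).mul_left_cancel h3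

/-- **Coefficients transcendental over a subfield.** -/
theorem transcendental_coeff_vanishing {ι : Type*} [Fintype ι] [DecidableEq ι] {e : ι → ι → G → ℂ}
    (he : IsIdempotentL1 e) {F K : Type*} [Field F] [Field K] [Algebra F K]
    {m : Type*} [Fintype m] [DecidableEq m] (ρ : G →* Matrix m m K) (g : G) (k : ℕ)
    (hk : Transcendental F ((ρ g).charpoly.coeff k)) :
    hsCoeff e (ConjClasses.mk g) = 0 := by
  obtain ⟨v, hv, hgt⟩ := exists_na_abs_of_transcendental _ hk
  exact linear_na_vanishing he v hv ρ g k hgt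

/-- **Linear representations in positive characteristic.** -/
theorem charP_vanishing {ι : Type*} [Fintype ι] [DecidableEq ι] {e : ι → ι → G → ℂ}
    (he : IsIdempotentL1 e) {K : Type*} [Field K] (p : ℕ) [Fact p.Prime] [CharP K p]
    {m : Type*} [Fintype m] [DecidableEq m] (ρ : G →* Matrix m m K) (g : G)
    (hg : ¬ IsOfFinOrder (ρ g)) :
    hsCoeff e (ConjClasses.mk g) = 0 := by
  letI : Algebra (ZMod p) K := ZMod.algebra K p
  by_cases halg : ∀ k, IsAlgebraic (ZMod p) ((ρ g).charpoly.coeff k)
  · exfalso
    apply hg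
    refine isOfFinOrder_of_algebraic_charpoly (F := ZMod p) (ρ g) ?_ halg
    exact ⟨⟨ρ g, ρ g⁻¹, by rw [← map_mul, mul_inv_cancel, map_one],
      by rw [← map_mul, inv_mul_cancel, map_one]⟩, rfl⟩
  · push Not at halg
    obtain ⟨k, hk⟩ := halg
    exact transcendental_coeff_vanishing he ρ g k hk

end Vale.Agent.Lib.P184
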