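import Mathlib
import Vale.Agent.Lib.P184.Defs
import Vale.Agent.Lib.P184.Cocycle

/-!
Vanishing at classes detected by a real character of a subgroup of finite index.
-/

namespace Vale.Agent.Lib.P184

variable {G : Type*} [Group G]

section FiniteIndex

variable (H : Subgroup G) (φ : H →* Multiplicative ℝ)

open Classical in
/-- extension by zero of the character -/
noncomputable def ext0 (a : G) : ℝ := if h : a ∈ H then Multiplicative.toAdd (φ ⟨a, h⟩) else 0

theorem ext0_mem {a : G} (h : a ∈ H) : ext0 H φ a = Multiplicative.toAdd (φ ⟨a, h⟩) := by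
  simp [ext0, h]

theorem ext0_mul {a b : G} (ha : a ∈ H) (hb : b ∈ H) :
    ext0 H φ (a * b) = ext0 H φ a + ext0 H φ b := by
  rw [ext0_mem H φ ha, ext0_mem H φ hb, ext0_mem H φ (H.mul_mem ha hb), ← toAdd_mul, ← map_mul]
  rfl

theorem ext0_conj {a h : G} (ha : a ∈ H) (hh : h ∈ H) :
    ext0 H φ (h * a * h⁻¹) = ext0 H φ a := by
  have h1 := ext0_mul H φ (H.mul_mem hh ha) (H.inv_mem hh)
  have h2 := ext0_mul H φ hh ha
  have h3 := ext0_mul H φ hh (H.inv_mem hh)
  have h4 : ext0 H φ 1 = 0 := by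
    have := ext0_mul H φ H.one_mem H.one_mem
    simp at this
    exact this
  rw [mul_inv_cancel, h4] at h3
  linarith

/-- coset representatives -/
noncomputable def rep (x : G ⧸ H) : G := Quotient.out x

theorem mk_rep (x : G ⧸ H) : ((rep H x : G) : G ⧸ H) = x := QuotientGroup.out_eq' x

/-- the coset cocycle -/
noncomputable def sig (y : G) (x : G ⧸ H) : G := (rep H (y • x))⁻¹ * y * rep H x

theorem sig_mem (y : G) (x : G ⧸ H) : sig H y x ∈ H := by
  unfold sig
  rw [mul_assoc, ← QuotientGroup.eq, mk_rep]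
  conv_lhs => rw [← mk_rep H x]
  rfl

theorem sig_mul (z y : G) (x : G ⧸ H) : sig H (z * y) x = sig H z (y • x) * sig H y x := by
  unfold sig
  rw [mul_smul]
  simp [mul_assoc]

/-- the pairs `(c, x)` conjugate to `(g, H)` -/
def Pr (g c : G) (x : G ⧸ H) : Prop := ∃ h ∈ H, (rep H x)⁻¹ * c * rep H x = h * g * h⁻¹

theorem Pr_conj (g c y : G) (x : G ⧸ H) : Pr H g (y * c * y⁻¹) (y • x) ↔ Pr H g c x := by
  have key : (rep H (y • x))⁻¹ * (y * c * y⁻¹) * rep H (y • x)
      = sig H y x * ((rep H x)⁻¹ * c * rep H x) * (sig H y x)⁻¹ := by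
    unfold sig
    simp [mul_assoc]
  constructor
  · rintro ⟨h, hh, hx⟩
    refine ⟨(sig H y x)⁻¹ * h, H.mul_mem (H.inv_mem (sig_mem H y x)) hh, ?_⟩
    rw [key] at hx
    have : (rep H x)⁻¹ * c * rep H x = (sig H y x)⁻¹ * (h * g * h⁻¹) * sig H y x := by
      rw [← hx]
      simp [mul_assoc]
    rw [this]
    simp [mul_assoc]
  · rintro ⟨h, hh, hx⟩
    refine ⟨sig H y x * h, H.mul_mem (sig_mem H y x) hh, ?_⟩
    rw [key, hx]
    simp [mul_assoc]

variable [H.FiniteIndex]

/-- the finite coset space -/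
noncomputable local instance fintypeCosets : Fintype (G ⧸ H) := H.fintypeQuotientOfFiniteIndex

open Classical in
/-- the cocycle on `G × G` -/
noncomputable def fiCocycle (g y c : G) : ℝ :=
  ∑ x : G ⧸ H, if Pr H g c x then ext0 H φ (sig H y x) else 0

/-- **Characters of finite-index subgroups.** -/
theorem finiteIndex_vanishing {ι : Type*} [Fintype ι] [DecidableEq ι] {e : ι → ι → G → ℂ}
    (he : IsIdempotentL1 e) (g : G) (hgH : g ∈ H) (hg : φ ⟨g, hgH⟩ ≠ 1) :
    hsCoeff e (ConjClasses.mk g) = 0 := by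
  classical
  refine cocycle_vanishing he (fiCocycle H φ g) ?_ ?_ g ?_
  · intro z y c
    unfold fiCocycle
    have h1 : ∑ x : G ⧸ H, (if Pr H g (y * c * y⁻¹) x then ext0 H φ (sig H z x) else 0)
        = ∑ x : G ⧸ H, (if Pr H g c x then ext0 H φ (sig H z (y • x)) else 0) := by
      rw [← Equiv.sum_comp (MulAction.toPerm y : Equiv.Perm (G ⧸ H))]
      refine Finset.sum_congr rfl (fun x _ => ?_)
      simp only [MulAction.toPerm_apply, Pr_conj]
    rw [h1, ← Finset.sum_add_distrib]
    refine Finset.sum_congr rfl (fun x _ => ?_)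
    split_ifs
    · rw [sig_mul, ext0_mul H φ (sig_mem H _ _) (sig_mem H _ _)]
    · simp
  · intro y
    refine ⟨∑ x : G ⧸ H, |ext0 H φ (sig H y x)|, fun c => ?_⟩
    unfold fiCocycle
    refine (Finset.abs_sum_le_sum_abs _ _).trans (Finset.sum_le_sum (fun x _ => ?_))
    split_ifs
    · exact le_refl _
    · simp
  · unfold fiCocycle
    have h1 : ∀ x : G ⧸ H, (if Pr H g g x then ext0 H φ (sig H g x) else 0)
        = if Pr H g g x then ext0 H φ g else 0 := by
      intro x
      split_ifs with hP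
      · obtain ⟨h, hh, hx⟩ := hP
        have hfix : g • x = x := by
          conv_lhs => rw [← mk_rep H x]
          conv_rhs => rw [← mk_rep H x]
          show ((g * rep H x : G) : G ⧸ H) = _
          rw [eq_comm, QuotientGroup.eq, ← mul_assoc, hx]
          exact H.mul_mem (H.mul_mem hh hgH) (H.inv_mem hh)
        unfold sig
        rw [hfix, hx, ext0_conj H φ hgH hh]
      · rfl
    simp_rw [h1]
    rw [← Finset.sum_filter, Finset.sum_const, nsmul_eq_mul]
    apply mul_ne_zero
    · have hne : (Finset.univ.filter fun x : G ⧸ H => Pr H g g x).Nonempty := by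
        refine ⟨((1 : G) : G ⧸ H), ?_⟩
        rw [Finset.mem_filter]
        refine ⟨Finset.mem_univ _, (rep H ((1 : G) : G ⧸ H))⁻¹, ?_, by simp⟩
        have h2 : ((rep H ((1 : G) : G ⧸ H) : G) : G ⧸ H) = ((1 : G) : G ⧸ H) := mk_rep H _
        rw [QuotientGroup.eq] at h2
        simpa using h2
      exact_mod_cast (Finset.card_pos.mpr hne).ne'
    · rw [ext0_mem H φ hgH]
      intro h
      apply hg
      exact Multiplicative.toAdd.injective (by simpa using h)

end FiniteIndex

end Vale.Agent.Lib.P184
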