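import Mathlib
import Vale.Agent.Lib.P184.Defs
import Vale.Agent.Lib.P184.Cocycle
import Vale.Agent.Lib.P184.FiniteIndex

/-!
Vanishing at classes of elements having a power detected by a real character of a subgroup of
finite index.
-/

namespace Vale.Agent.Lib.P184

variable {G : Type*} [Group G]

section FiniteIndexPow

variable (H : Subgroup G) (φ : H →* Multiplicative ℝ) [H.FiniteIndex]

/-- the finite coset space -/
noncomputable local instance fintypeCosets' : Fintype (G ⧸ H) := H.fintypeQuotientOfFiniteIndex

open Classical in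
/-- an exponent killing every permutation of the coset space -/
noncomputable def expo : ℕ := Fintype.card (Equiv.Perm (G ⧸ H))

theorem expo_pos : 0 < expo H := by
  classical
  unfold expo
  exact Fintype.card_pos

theorem pow_expo_smul (c : G) (x : G ⧸ H) : c ^ expo H • x = x := by
  classical
  have h1 : (MulAction.toPermHom G (G ⧸ H) c) ^ expo H = 1 := pow_card_eq_one
  rw [← map_pow] at h1
  have h2 := congrArg (fun σ : Equiv.Perm (G ⧸ H) => σ x) h1
  simpa using h2

theorem conj_pow_mem (c : G) (x : G ⧸ H) : (rep H x)⁻¹ * c ^ expo H * rep H x ∈ H := by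
  have h := sig_mem H (c ^ expo H) x
  unfold sig at h
  rwa [pow_expo_smul] at h

/-- the value of the character on the conjugated power -/
noncomputable def val (c : G) (x : G ⧸ H) : ℝ := ext0 H φ ((rep H x)⁻¹ * c ^ expo H * rep H x)

theorem val_conj (c y : G) (x : G ⧸ H) : val H φ (y * c * y⁻¹) (y • x) = val H φ c x := by
  unfold val
  have key : (rep H (y • x))⁻¹ * (y * c * y⁻¹) ^ expo H * rep H (y • x)
      = sig H y x * ((rep H x)⁻¹ * c ^ expo H * rep H x) * (sig H y x)⁻¹ := by
    rw [conj_pow]
    unfold sig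
    simp [mul_assoc]
  rw [key, ext0_conj H φ (conj_pow_mem H c x) (sig_mem H y x)]

/-- the cocycle on `G × G` -/
noncomputable def fpCocycle (y c : G) : ℝ :=
  ∑ x : G ⧸ H, Real.sign (val H φ c x) * ext0 H φ (sig H y x)

theorem fpCocycle_cocycle (z y c : G) :
    fpCocycle H φ (z * y) c = fpCocycle H φ z (y * c * y⁻¹) + fpCocycle H φ y c := by
  unfold fpCocycle
  have h1 : ∑ x : G ⧸ H, Real.sign (val H φ (y * c * y⁻¹) x) * ext0 H φ (sig H z x)
      = ∑ x : G ⧸ H, Real.sign (val H φ c x) * ext0 H φ (sig H z (y • x)) := by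
    rw [← Equiv.sum_comp (MulAction.toPerm y : Equiv.Perm (G ⧸ H))]
    refine Finset.sum_congr rfl (fun x _ => ?_)
    simp only [MulAction.toPerm_apply, val_conj]
  rw [h1, ← Finset.sum_add_distrib]
  refine Finset.sum_congr rfl (fun x _ => ?_)
  rw [sig_mul, ext0_mul H φ (sig_mem H _ _) (sig_mem H _ _)]
  ring

theorem abs_sign_le_one (r : ℝ) : |Real.sign r| ≤ 1 := by
  rcases Real.sign_apply_eq r with h | h | h <;> simp [h]

theorem sign_mul_self (r : ℝ) : Real.sign r * r = |r| := by
  rcases lt_trichotomy r 0 with h | h | h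
  · rw [Real.sign_of_neg h, abs_of_neg h]; ring
  · simp [h]
  · rw [Real.sign_of_pos h, abs_of_pos h]; ring

/-- **Powers detected by characters of finite-index subgroups.** -/
theorem finiteIndexPow_vanishing {ι : Type*} [Fintype ι] [DecidableEq ι] {e : ι → ι → G → ℂ}
    (he : IsIdempotentL1 e) (g : G) (k : ℕ) (hgH : g ^ k ∈ H) (hg : φ ⟨g ^ k, hgH⟩ ≠ 1) :
    hsCoeff e (ConjClasses.mk g) = 0 := by
  classical
  refine cocycle_vanishing he (fpCocycle H φ) (fpCocycle_cocycle H φ) ?_ g ?_
  · intro y
    refine ⟨∑ x : G ⧸ H, |ext0 H φ (sig H y x)|, fun c => ?_⟩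
    unfold fpCocycle
    refine (Finset.abs_sum_le_sum_abs _ _).trans (Finset.sum_le_sum (fun x _ => ?_))
    rw [abs_mul]
    calc |Real.sign (val H φ c x)| * |ext0 H φ (sig H y x)|
        ≤ 1 * |ext0 H φ (sig H y x)| :=
          mul_le_mul_of_nonneg_right (abs_sign_le_one _) (abs_nonneg _)
      _ = |ext0 H φ (sig H y x)| := one_mul _
  · -- multiples
    have hmul : ∀ j : ℕ, fpCocycle H φ (g ^ j) g = j * fpCocycle H φ g g := by
      intro j
      induction j with
      | zero =>
        have := cocycle_one (fpCocycle_cocycle H φ) g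
        simpa using this
      | succ j ih =>
        rw [pow_succ, fpCocycle_cocycle, mul_inv_cancel_right, ih]
        push_cast
        ring
    have hsum : fpCocycle H φ (g ^ expo H) g = ∑ x : G ⧸ H, |val H φ g x| := by
      unfold fpCocycle
      refine Finset.sum_congr rfl (fun x _ => ?_)
      have : ext0 H φ (sig H (g ^ expo H) x) = val H φ g x := by
        unfold sig val
        rw [pow_expo_smul]
      rw [this, sign_mul_self]
    -- the value at the trivial coset
    set x₀ : G ⧸ H := ((1 : G) : G ⧸ H) with hx₀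
    have hr : rep H x₀ ∈ H := by
      have h2 : ((rep H x₀ : G) : G ⧸ H) = ((1 : G) : G ⧸ H) := mk_rep H _
      rw [QuotientGroup.eq] at h2
      simpa using h2
    have hgm : g ^ expo H ∈ H := by
      have h3 := conj_pow_mem H g x₀
      have h4 : g ^ expo H
          = rep H x₀ * ((rep H x₀)⁻¹ * g ^ expo H * rep H x₀) * (rep H x₀)⁻¹ := by
        simp [mul_assoc]
      rw [h4]
      exact H.mul_mem (H.mul_mem hr h3) (H.inv_mem hr)
    have hval0 : val H φ g x₀ = ext0 H φ (g ^ expo H) := by
      unfold val
      have := ext0_conj H φ hgm (H.inv_mem hr)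
      simpa using this
    -- additivity on powers
    have hpow : ∀ (a : G) (_ : a ∈ H) (n : ℕ), ext0 H φ (a ^ n) = n * ext0 H φ a := by
      intro a ha n
      induction n with
      | zero =>
        have := ext0_mul H φ H.one_mem H.one_mem
        simp at this
        simpa using this
      | succ n ih =>
        rw [pow_succ, ext0_mul H φ (H.pow_mem ha n) ha, ih]
        push_cast
        ring
    have hk0 : ext0 H φ (g ^ k) ≠ 0 := by
      rw [ext0_mem H φ hgH]
      intro h
      apply hg
      exact Multiplicative.toAdd.injective (by simpa using h)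
    have hne : ext0 H φ (g ^ expo H) ≠ 0 := by
      intro h0
      have h5 := hpow (g ^ expo H) hgm k
      have h6 := hpow (g ^ k) hgH (expo H)
      rw [← pow_mul] at h5 h6
      rw [mul_comm k (expo H)] at h6
      rw [h5, h0, mul_zero] at h6
      have h7 : (expo H : ℝ) ≠ 0 := by exact_mod_cast (expo_pos H).ne'
      exact (mul_ne_zero h7 hk0) h6.symm
    have hpos : 0 < ∑ x : G ⧸ H, |val H φ g x| := by
      refine lt_of_lt_of_le (abs_pos.mpr (hval0 ▸ hne))
        (Finset.single_le_sum (f := fun x => |val H φ g x|) (fun _ _ => abs_nonneg _)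
          (Finset.mem_univ x₀))
    intro h0
    have := hmul (expo H)
    rw [hsum, h0, mul_zero] at this
    exact hpos.ne' this

end FiniteIndexPow

end Vale.Agent.Lib.P184
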