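import Mathlib
import Vale.Agent.Lib.P184.Defs
import Vale.Agent.Lib.P184.Cocycle

/-!
The horofunction criterion, and hyperbolic isometries of `0`-hyperbolic spaces (trees).
-/

namespace Vale.Agent.Lib.P184

variable {G : Type*} [Group G]

section Horo

variable {Y : Type*} [PseudoMetricSpace Y] [MulAction G Y] [IsIsometricSMul G Y]

open Classical in
/-- the cocycle attached to a function `b` on `Y`, a base point and an element `g` -/
noncomputable def horoCocycle (b : Y → ℝ) (o : Y) (g : G) (y c : G) : ℝ :=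
  if h : ∃ v : G, c = v * g * v⁻¹ then
    b ((Classical.choose h)⁻¹ • y⁻¹ • o) - b ((Classical.choose h)⁻¹ • o)
  else 0

omit [PseudoMetricSpace Y] [IsIsometricSMul G Y] in
theorem horoCocycle_eq (b : Y → ℝ) (o : Y) (g : G)
    (hZ : ∀ z : G, z * g = g * z → ∃ k : ℝ, ∀ p, b (z • p) = b p + k) (y v : G) :
    horoCocycle b o g y (v * g * v⁻¹) = b (v⁻¹ • y⁻¹ • o) - b (v⁻¹ • o) := by
  have h : ∃ v' : G, v * g * v⁻¹ = v' * g * v'⁻¹ := ⟨v, rfl⟩
  unfold horoCocycle
  rw [dif_pos h]
  set v₀ := Classical.choose h with hv₀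
  have hv : v * g * v⁻¹ = v₀ * g * v₀⁻¹ := Classical.choose_spec h
  -- z = v₀⁻¹ v commutes with g
  have hz : (v₀⁻¹ * v) * g = g * (v₀⁻¹ * v) := by
    have h1 : v * g = v₀ * g * v₀⁻¹ * v := by
      rw [← hv]; simp
    calc (v₀⁻¹ * v) * g = v₀⁻¹ * (v * g) := by rw [mul_assoc]
      _ = v₀⁻¹ * (v₀ * g * v₀⁻¹ * v) := by rw [h1]
      _ = g * (v₀⁻¹ * v) := by simp [mul_assoc]
  obtain ⟨k, hk⟩ := hZ _ hz
  have h2 : ∀ p : Y, b (v₀⁻¹ • p) = b (v⁻¹ • p) + k := by
    intro p
    have := hk (v⁻¹ • p)
    rw [smul_smul] at this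
    simpa [mul_assoc] using this
  rw [h2, h2]
  ring

/-- **Horofunction criterion.** -/
theorem horofunction_vanishing {ι : Type*} [Fintype ι] [DecidableEq ι] {e : ι → ι → G → ℂ}
    (he : IsIdempotentL1 e) (b : Y → ℝ) (L : ℝ) (hLip : ∀ p q, |b p - b q| ≤ L * dist p q)
    (o : Y) (g : G) (k : ℝ) (hk : k ≠ 0) (hg : ∀ p, b (g • p) = b p + k)
    (hZ : ∀ z : G, z * g = g * z → ∃ k' : ℝ, ∀ p, b (z • p) = b p + k') :
    hsCoeff e (ConjClasses.mk g) = 0 := by
  refine cocycle_vanishing he (horoCocycle b o g) ?_ ?_ g ?_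
  · intro z y c
    by_cases h : ∃ v : G, c = v * g * v⁻¹
    · obtain ⟨v, rfl⟩ := h
      have h1 : y * (v * g * v⁻¹) * y⁻¹ = (y * v) * g * (y * v)⁻¹ := by simp [mul_assoc]
      rw [h1, horoCocycle_eq b o g hZ, horoCocycle_eq b o g hZ, horoCocycle_eq b o g hZ]
      simp only [mul_inv_rev, mul_smul]
      ring
    · have h' : ¬ ∃ v : G, y * c * y⁻¹ = v * g * v⁻¹ := by
        rintro ⟨v, hv⟩
        apply h
        refine ⟨y⁻¹ * v, ?_⟩
        have : c = y⁻¹ * (y * c * y⁻¹) * y := by simp [mul_assoc]
        rw [this, hv]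
        simp [mul_assoc]
      simp [horoCocycle, h, h']
  · intro y
    refine ⟨|L * dist (y⁻¹ • o) o|, fun c => ?_⟩
    by_cases h : ∃ v : G, c = v * g * v⁻¹
    · obtain ⟨v, rfl⟩ := h
      rw [horoCocycle_eq b o g hZ]
      refine (hLip _ _).trans ?_
      rw [dist_smul]
      exact le_abs_self _
    · simp only [horoCocycle, h, dif_neg, not_false_eq_true, abs_zero]
      exact abs_nonneg _
  · have h1 : horoCocycle b o g g g = b (g⁻¹ • o) - b o := by
      have := horoCocycle_eq b o g hZ g 1
      simpa using this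
    rw [h1]
    have h2 := hg (g⁻¹ • o)
    rw [smul_inv_smul] at h2
    intro h3
    apply hk
    linarith

/-- the normalised distances to the orbit points `g ^ n • o` -/
noncomputable def bseq (g : G) (o : Y) (l : ℝ) (p : Y) (n : ℕ) : ℝ := dist p (g ^ n • o) - n * l

/-- the Busemann function of the orbit `g ^ n • o` -/
noncomputable def bus (g : G) (o : Y) (l : ℝ) (p : Y) : ℝ := ⨅ n, bseq g o l p n

theorem bseq_tendsto (g : G) (o : Y) (l : ℝ) (hax : ∀ n : ℕ, dist o (g ^ n • o) = n * l) (p : Y) :
    Filter.Tendsto (bseq g o l p) Filter.atTop (nhds (bus g o l p)) := by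
  apply tendsto_atTop_ciInf
  · apply antitone_nat_of_succ_le
    intro n
    unfold bseq
    have h1 : dist (g ^ n • o) (g ^ (n + 1) • o) = l := by
      rw [pow_succ, mul_smul, dist_smul]
      have := hax 1
      simpa using this
    have h2 := dist_triangle p (g ^ n • o) (g ^ (n + 1) • o)
    push_cast
    linarith
  · refine ⟨- dist p o, ?_⟩
    rintro _ ⟨n, rfl⟩
    unfold bseq
    have h1 := dist_triangle o p (g ^ n • o)
    rw [hax n, dist_comm o p] at h1
    linarith

/-- **Hyperbolic isometries of `0`-hyperbolic spaces.** -/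
theorem tree_vanishing {ι : Type*} [Fintype ι] [DecidableEq ι] {e : ι → ι → G → ℂ}
    (he : IsIdempotentL1 e)
    (h4 : ∀ x y z w : Y, dist x y + dist z w ≤ max (dist x z + dist y w) (dist x w + dist y z))
    (g : G) (o : Y) (l : ℝ) (hl : 0 < l) (hax : ∀ n : ℕ, dist o (g ^ n • o) = n * l) :
    hsCoeff e (ConjClasses.mk g) = 0 := by
  have hT := bseq_tendsto g o l hax
  refine horofunction_vanishing he (bus g o l) 1 ?_ o g (-l) (by linarith [hl]) ?_ ?_
  · -- Lipschitz
    intro p q
    rw [one_mul]
    have h1 : Filter.Tendsto (fun n => |bseq g o l p n - bseq g o l q n|) Filter.atTop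
        (nhds |bus g o l p - bus g o l q|) := ((hT p).sub (hT q)).abs
    refine le_of_tendsto h1 (Filter.Eventually.of_forall fun n => ?_)
    unfold bseq
    have := abs_dist_sub_le p q (g ^ n • o)
    have h2 : dist p (g ^ n • o) - n * l - (dist q (g ^ n • o) - n * l)
        = dist p (g ^ n • o) - dist q (g ^ n • o) := by ring
    rw [h2]
    exact this
  · -- translation by g
    intro p
    have h1 : Filter.Tendsto (fun n => bseq g o l (g • p) (n + 1)) Filter.atTop
        (nhds (bus g o l (g • p))) := (Filter.tendsto_add_atTop_iff_nat 1).mpr (hT (g • p))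
    have h2 : Filter.Tendsto (fun n => bseq g o l p n + -l) Filter.atTop
        (nhds (bus g o l p + -l)) := (hT p).add_const _
    have h3 : (fun n => bseq g o l (g • p) (n + 1)) = fun n => bseq g o l p n + -l := by
      funext n
      unfold bseq
      rw [pow_succ', mul_smul, dist_smul]
      push_cast
      ring
    rw [h3] at h1
    exact tendsto_nhds_unique h1 h2
  · -- the centraliser
    intro z hz
    have hzn : ∀ n : ℕ, z⁻¹ * g ^ n = g ^ n * z⁻¹ := by
      intro n
      have hc : Commute z g := hz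
      exact (hc.inv_left.pow_right n).eq
    -- distances from z • p
    have hdist : ∀ (p : Y) (n : ℕ), dist (z • p) (g ^ n • o) = dist p (g ^ n • z⁻¹ • o) := by
      intro p n
      rw [← dist_smul z⁻¹ (z • p), inv_smul_smul, smul_smul, hzn n, mul_smul]
    have hr : ∀ n : ℕ, dist (g ^ n • o) (g ^ n • z⁻¹ • o) = dist o (z⁻¹ • o) := fun n =>
      dist_smul _ _ _
    -- the key inequality
    have key : ∀ p q : Y, bus g o l p + bus g o l (z • q) ≤ bus g o l (z • p) + bus g o l q := by
      intro p q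
      have hlim1 := (hT p).add (hT (z • q))
      have hlim2 := (hT (z • p)).add (hT q)
      refine le_of_tendsto_of_tendsto hlim1 hlim2 ?_
      -- for large n
      obtain ⟨N, hN⟩ := exists_nat_gt
        ((dist p q + 2 * dist o (z⁻¹ • o) + dist p o + dist q o) / (2 * l))
      refine Filter.eventually_atTop.mpr ⟨N, fun n hn => ?_⟩
      have hnl : dist p q + 2 * dist o (z⁻¹ • o) + dist p o + dist q o < 2 * l * n := by
        have h1 : ((dist p q + 2 * dist o (z⁻¹ • o) + dist p o + dist q o) / (2 * l)) < n :=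
          lt_of_lt_of_le hN (by exact_mod_cast hn)
        rw [div_lt_iff₀ (by linarith)] at h1
        linarith
      have h5 := h4 p (g ^ n • o) q (g ^ n • z⁻¹ • o)
      have h6 : (n : ℝ) * l ≤ dist p o + dist p (g ^ n • o) := by
        have := dist_triangle o p (g ^ n • o)
        rw [hax n, dist_comm o p] at this
        exact this
      have h7 : (n : ℝ) * l ≤ dist q o + dist q (g ^ n • z⁻¹ • o) + dist o (z⁻¹ • o) := by
        have h8 := dist_triangle o q (g ^ n • o)
        have h9 := dist_triangle q (g ^ n • z⁻¹ • o) (g ^ n • o)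
        rw [dist_comm (g ^ n • z⁻¹ • o), hr n] at h9
        rw [hax n, dist_comm o q] at h8
        linarith
      have h10 : dist p (g ^ n • o) + dist q (g ^ n • z⁻¹ • o)
          ≤ dist p (g ^ n • z⁻¹ • o) + dist (g ^ n • o) q := by
        rcases le_max_iff.mp h5 with h | h
        · exfalso
          rw [hr n] at h
          nlinarith
        · exact h
      show bseq g o l p n + bseq g o l (z • q) n ≤ bseq g o l (z • p) n + bseq g o l q n
      unfold bseq
      rw [hdist, hdist, dist_comm q (g ^ n • o)]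
      linarith
    refine ⟨bus g o l (z • o) - bus g o l o, fun p => ?_⟩
    have h1 := key p o
    have h2 := key o p
    linarith

end Horo

end Vale.Agent.Lib.P184
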