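import Mathlib
import Vale.Agent.Lib.P184.Defs
import Vale.Agent.Lib.P184.DefsConj
import Vale.Agent.Lib.P184.FiniteIndex

/-!
The `ℓ¹`-Bass conjecture for groups all of whose nontrivial elements are detected by real characters
of finite-index subgroups, in particular for RFRS groups.
-/

namespace Vale.Agent.Lib.P184

variable {G : Type*} [Group G]

/-- an element with no nonzero power in the commutator subgroup is detected by a real character -/
theorem exists_character (H : Type*) [Group H] (g : H)
    (hg : ∀ k : ℕ, 0 < k → g ^ k ∉ commutator H) :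
    ∃ φ : H →* Multiplicative ℝ, φ g ≠ 1 := by
  set a : Additive (Abelianization H) := Additive.ofMul (Abelianization.of g) with ha
  have hna : ∀ k : ℕ, 0 < k → k • a ≠ 0 := by
    intro k hk h
    apply hg k hk
    rw [← Abelianization.ker_of, MonoidHom.mem_ker, map_pow]
    have : Additive.ofMul (Abelianization.of g ^ k) = 0 := by
      rw [ofMul_pow]; exact h
    exact Additive.ofMul.injective this
  let f : ℤ →+ Additive (Abelianization H) := zmultiplesHom _ a
  have hf : Function.Injective f := by
    rw [injective_iff_map_eq_zero]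
    intro n hn
    by_contra hne
    have h1 : n • a = 0 := by simpa [f] using hn
    have h2 : n.natAbs • a = 0 := by
      rcases Int.natAbs_eq n with h | h
      · rw [h] at h1
        simpa using h1
      · rw [h] at h1
        simpa using h1
    exact hna n.natAbs (Int.natAbs_pos.mpr hne) h2
  obtain ⟨ψ, hψ⟩ := (Module.Baer.of_divisible ℝ).extension_property_addMonoidHom f hf
    (Int.castAddHom ℝ)
  have hψa : ψ a = 1 := by
    have := DFunLike.congr_fun hψ 1
    simpa [f] using this
  refine ⟨{ toFun := fun h => Multiplicative.ofAdd (ψ (Additive.ofMul (Abelianization.of h)))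
            map_one' := by simp
            map_mul' := by intro x y; simp [ofAdd_add] }, ?_⟩
  show Multiplicative.ofAdd (ψ a) ≠ 1
  rw [hψa]
  intro h
  have : (1 : ℝ) = 0 := Multiplicative.ofAdd.injective h
  exact one_ne_zero this

/-- the conjecture for groups whose nontrivial elements are virtually detected by characters -/
theorem l1Bass_of_visible
    (h : ∀ g : G, g ≠ 1 → ∃ (H : Subgroup G) (_ : H.FiniteIndex) (φ : H →* Multiplicative ℝ)
      (hg : g ∈ H), φ ⟨g, hg⟩ ≠ 1) : L1Bass G := by
  intro q e he
  refine ⟨{ConjClasses.mk 1}, ?_, ?_⟩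
  · intro C hC x hx
    rw [Finset.mem_singleton] at hC
    subst hC
    rw [ConjClasses.mem_carrier_iff_mk_eq, ConjClasses.mk_eq_mk_iff_isConj, isConj_one_left] at hx
    subst hx
    exact IsOfFinOrder.one
  · intro C hC
    obtain ⟨g, rfl⟩ := ConjClasses.exists_rep C
    have hg1 : g ≠ 1 := by
      rintro rfl
      exact hC (Finset.mem_singleton_self _)
    obtain ⟨H, hH, φ, hg, hφ⟩ := h g hg1
    exact finiteIndex_vanishing H φ he g hg hφ

theorem l1Bass_of_isRFRS (h : IsRFRS G) : L1Bass G := by
  obtain ⟨N, h0, _, hfi, _, hint, hrat⟩ := h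
  apply l1Bass_of_visible
  intro g hg1
  -- the last index with g in N i
  have hex : ∃ j, g ∉ N j := by
    by_contra hcon
    push Not at hcon
    exact hg1 (hint g hcon)
  classical
  set j := Nat.find hex with hj
  have hjspec : g ∉ N j := Nat.find_spec hex
  have hj0 : j ≠ 0 := by
    intro h
    rw [h, h0] at hjspec
    exact hjspec (Subgroup.mem_top g)
  obtain ⟨i, hi⟩ := Nat.exists_eq_succ_of_ne_zero hj0
  have hgi : g ∈ N i := by
    by_contra hcon
    have := Nat.find_min' hex hcon
    omega
  have hpow : ∀ k : ℕ, 0 < k → (⟨g, hgi⟩ : N i) ^ k ∉ commutator (N i) := by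
    intro k hk hmem
    apply hjspec
    rw [hi]
    refine hrat i g hgi k hk ?_
    rw [← Subgroup.map_subtype_commutator]
    exact ⟨_, hmem, rfl⟩
  obtain ⟨φ, hφ⟩ := exists_character (N i) ⟨g, hgi⟩ hpow
  exact ⟨N i, hfi i, φ, hgi, hφ⟩

end Vale.Agent.Lib.P184
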